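import Mathlib

/-! Order of vanishing of ternary polynomials, via derivatives. -/

namespace Vale.Agent.NagataCurves

open MvPolynomial

/-- the iterated derivative of `F` along the list of variables `l` -/
noncomputable def dl (l : List (Fin 3)) (F : MvPolynomial (Fin 3) ℂ) : MvPolynomial (Fin 3) ℂ :=
  l.foldr (fun i G => pderiv i G) F

/-- recursive form: `F` vanishes to order at least `k` at `v` -/
def OrdGE : ℕ → MvPolynomial (Fin 3) ℂ → (Fin 3 → ℂ) → Prop
  | 0, _, _ => True
  | k + 1, F, v => eval v F = 0 ∧ ∀ i, OrdGE k (pderiv i F) v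

theorem pderiv_comm3 (i j : Fin 3) (F : MvPolynomial (Fin 3) ℂ) :
    pderiv i (pderiv j F) = pderiv j (pderiv i F) := by
  classical
  ext m
  simp only [coeff_pderiv]
  by_cases h : i = j
  · subst h; rfl
  · have h1 : (m + Finsupp.single i 1 : Fin 3 →₀ ℕ) j = m j := by
      simp [h]
    have h2 : (m + Finsupp.single j 1 : Fin 3 →₀ ℕ) i = m i := by
      simp [Ne.symm h]
    rw [h1, h2, add_right_comm]
    ring

theorem dl_nil (F : MvPolynomial (Fin 3) ℂ) : dl [] F = F := rfl

theorem dl_cons (i : Fin 3) (l : List (Fin 3)) (F : MvPolynomial (Fin 3) ℂ) :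
    dl (i :: l) F = pderiv i (dl l F) := rfl

theorem dl_pderiv (i : Fin 3) (l : List (Fin 3)) (F : MvPolynomial (Fin 3) ℂ) :
    dl l (pderiv i F) = pderiv i (dl l F) := by
  induction l with
  | nil => rfl
  | cons j l ih => rw [dl_cons, dl_cons, ih, pderiv_comm3]

theorem dl_cons' (i : Fin 3) (l : List (Fin 3)) (F : MvPolynomial (Fin 3) ℂ) :
    dl (i :: l) F = dl l (pderiv i F) := by
  rw [dl_cons, dl_pderiv]

theorem ordGE_iff (k : ℕ) (F : MvPolynomial (Fin 3) ℂ) (v : Fin 3 → ℂ) :
    OrdGE k F v ↔ ∀ l : List (Fin 3), l.length < k → eval v (dl l F) = 0 := by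
  induction k generalizing F with
  | zero => simp [OrdGE]
  | succ k ih =>
    constructor
    · rintro ⟨h0, h1⟩ l hl
      cases l with
      | nil => exact h0
      | cons i l =>
        rw [dl_cons']
        exact (ih _).1 (h1 i) l (by simpa using hl)
    · intro h
      refine ⟨h [] (by simp), fun i => (ih _).2 fun l hl => ?_⟩
      rw [← dl_cons']
      exact h (i :: l) (by simpa using hl)

theorem OrdGE.mono {k j : ℕ} (hjk : j ≤ k) {F : MvPolynomial (Fin 3) ℂ} {v : Fin 3 → ℂ}
    (h : OrdGE k F v) : OrdGE j F v := by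
  rw [ordGE_iff] at h ⊢
  exact fun l hl => h l (lt_of_lt_of_le hl hjk)

theorem ordGE_zero (F : MvPolynomial (Fin 3) ℂ) (v : Fin 3 → ℂ) : OrdGE 0 F v := trivial

theorem OrdGE.zero (k : ℕ) (v : Fin 3 → ℂ) : OrdGE k 0 v := by
  induction k with
  | zero => trivial
  | succ k ih => exact ⟨by simp, fun i => by simpa using ih⟩

theorem OrdGE.add {k : ℕ} {F G : MvPolynomial (Fin 3) ℂ} {v : Fin 3 → ℂ}
    (hF : OrdGE k F v) (hG : OrdGE k G v) : OrdGE k (F + G) v := by
  induction k generalizing F G with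
  | zero => trivial
  | succ k ih =>
    exact ⟨by rw [map_add, hF.1, hG.1, add_zero], fun i => by
      rw [map_add]; exact ih (hF.2 i) (hG.2 i)⟩

theorem OrdGE.smul {k : ℕ} {F : MvPolynomial (Fin 3) ℂ} {v : Fin 3 → ℂ} (c : ℂ)
    (hF : OrdGE k F v) : OrdGE k (c • F) v := by
  induction k generalizing F with
  | zero => trivial
  | succ k ih =>
    exact ⟨by rw [smul_eval, hF.1, mul_zero], fun i => by
      rw [Derivation.map_smul]; exact ih (hF.2 i)⟩

theorem OrdGE.neg {k : ℕ} {F : MvPolynomial (Fin 3) ℂ} {v : Fin 3 → ℂ}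
    (hF : OrdGE k F v) : OrdGE k (-F) v := by
  have := hF.smul (-1)
  simpa using this

theorem OrdGE.sub {k : ℕ} {F G : MvPolynomial (Fin 3) ℂ} {v : Fin 3 → ℂ}
    (hF : OrdGE k F v) (hG : OrdGE k G v) : OrdGE k (F - G) v := by
  rw [sub_eq_add_neg]; exact hF.add hG.neg

theorem OrdGE.mul_left {n : ℕ} (F : MvPolynomial (Fin 3) ℂ) {G : MvPolynomial (Fin 3) ℂ}
    {v : Fin 3 → ℂ} (hG : OrdGE n G v) : OrdGE n (F * G) v := by
  induction n generalizing F G with
  | zero => trivial
  | succ n ih =>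
    refine ⟨by rw [map_mul, hG.1, mul_zero], fun i => ?_⟩
    rw [pderiv_mul]
    exact (ih _ (hG.mono (Nat.le_succ n))).add (ih _ (hG.2 i))

theorem OrdGE.mul {m n : ℕ} {F G : MvPolynomial (Fin 3) ℂ} {v : Fin 3 → ℂ}
    (hF : OrdGE m F v) (hG : OrdGE n G v) : OrdGE (m + n) (F * G) v := by
  induction m generalizing n F G with
  | zero => rw [zero_add]; exact hG.mul_left F
  | succ m ihm =>
    induction n generalizing F G with
    | zero => rw [add_zero, mul_comm]; exact hF.mul_left G
    | succ n ihn =>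
      refine ⟨by rw [map_mul, hF.1, zero_mul], fun i => ?_⟩
      rw [pderiv_mul]
      have h1 := ihm (n := n + 1) (hF.2 i) hG
      have h2 := ihn hF (hG.2 i)
      have e1 : m + (n + 1) = m + 1 + n := by ring
      rw [e1] at h1
      have h3 := h1.add h2
      exact h3

/-- cancelling a factor that does not vanish -/
theorem OrdGE.of_mul {k : ℕ} {B u : MvPolynomial (Fin 3) ℂ} {v : Fin 3 → ℂ}
    (hB : eval v B ≠ 0) (h : OrdGE k (B * u) v) : OrdGE k u v := by
  induction k generalizing u with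
  | zero => trivial
  | succ k ih =>
    have h0 : OrdGE k u v := ih (h.mono (Nat.le_succ k))
    refine ⟨?_, fun i => ?_⟩
    · have := h.1
      rw [map_mul] at this
      exact (mul_eq_zero.1 this).resolve_left hB
    · have h1 := h.2 i
      rw [pderiv_mul] at h1
      have h2 : OrdGE k (pderiv i B * u) v := h0.mul_left _
      have h3 := h1.sub h2
      rw [add_sub_cancel_left] at h3
      exact ih h3

theorem isHomogeneous_dl {N : ℕ} {F : MvPolynomial (Fin 3) ℂ} (hF : F.IsHomogeneous N)
    (l : List (Fin 3)) : (dl l F).IsHomogeneous (N - l.length) := by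
  induction l with
  | nil => simpa [dl_nil] using hF
  | cons i l ih =>
    rw [dl_cons, List.length_cons, ← Nat.sub_sub]
    exact ih.pderiv

/-- Euler: for a form, vanishing of all derivatives of order exactly `k` gives order `k+1`. -/
theorem ordGE_of_top {N k : ℕ} (hk : k ≤ N) {F : MvPolynomial (Fin 3) ℂ}
    (hF : F.IsHomogeneous N) (v : Fin 3 → ℂ)
    (h : ∀ l : List (Fin 3), l.length = k → eval v (dl l F) = 0) : OrdGE (k + 1) F v := by
  rw [ordGE_iff]
  intro l hl
  obtain ⟨j, hj⟩ : ∃ j, l.length + j = k := ⟨k - l.length, by omega⟩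
  induction j generalizing l with
  | zero => exact h l (by omega)
  | succ j ih =>
    have hE := (isHomogeneous_dl hF l).sum_X_mul_pderiv
    have hE' := congrArg (eval v) hE
    rw [map_sum] at hE'
    have h0 : ∑ i : Fin 3, eval v (X i * pderiv i (dl l F)) = 0 := by
      apply Finset.sum_eq_zero
      intro i _
      rw [map_mul, ← dl_cons, ih (i :: l) (by simp; omega) (by simp; omega), mul_zero]
    rw [h0] at hE'
    rw [nsmul_eq_mul, map_mul, map_natCast] at hE'
    have hne : ((N - l.length : ℕ) : ℂ) ≠ 0 := by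
      rw [Nat.cast_ne_zero]; omega
    exact (mul_eq_zero.1 hE'.symm).resolve_left hne

/-- a form of degree `n` vanishing to order `n+1` somewhere is zero -/
theorem eq_zero_of_ordGE {n : ℕ} {w : MvPolynomial (Fin 3) ℂ} (hw : w.IsHomogeneous n)
    {v : Fin 3 → ℂ} (h : OrdGE (n + 1) w v) : w = 0 := by
  induction n generalizing w with
  | zero =>
    have h1 := h.1
    have h2 : w = C (coeff 0 w) := by
      have h3 : w ∈ homogeneousSubmodule (Fin 3) ℂ 0 := hw
      rw [homogeneousSubmodule_zero] at h3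
      obtain ⟨a, ha⟩ := Submodule.mem_one.1 h3
      rw [← ha]
      simp [algebraMap_eq]
    rw [h2, eval_C] at h1
    rw [h2, h1, map_zero]
  | succ n ih =>
    have h1 : ∀ i, pderiv i w = 0 := fun i => ih (by simpa using hw.pderiv) (h.2 i)
    have hE := hw.sum_X_mul_pderiv
    simp only [h1, mul_zero, Finset.sum_const_zero] at hE
    rw [nsmul_eq_mul] at hE
    have hne : ((n + 1 : ℕ) : MvPolynomial (Fin 3) ℂ) ≠ 0 := by
      rw [Nat.cast_ne_zero]; omega
    exact (mul_eq_zero.1 hE.symm).resolve_left hne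

theorem eval_smul_of_isHomogeneous {σ : Type*} {N : ℕ} {F : MvPolynomial σ ℂ}
    (hF : F.IsHomogeneous N) (v : σ → ℂ) (c : ℂ) :
    eval (c • v) F = c ^ N * eval v F := by
  rw [eval_eq, eval_eq, Finset.mul_sum]
  refine Finset.sum_congr rfl fun d hd => ?_
  have hd' : ∑ i ∈ d.support, d i = N := by
    have h1 := hF (mem_support_iff.1 hd)
    have h2 : Finsupp.degree d = N := by
      rw [Finsupp.degree_eq_weight_one]; exact h1
    rw [← h2, Finsupp.degree_apply]
  simp only [Pi.smul_apply, smul_eq_mul, mul_pow, Finset.prod_mul_distrib, Finset.prod_pow_eq_pow_sum]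
  rw [hd']
  ring

/-- scaling the point -/
theorem ordGE_smul_iff {N k : ℕ} {F : MvPolynomial (Fin 3) ℂ} (hF : F.IsHomogeneous N)
    (v : Fin 3 → ℂ) {c : ℂ} (hc : c ≠ 0) : OrdGE k F (c • v) ↔ OrdGE k F v := by
  rw [ordGE_iff, ordGE_iff]
  refine forall_congr' fun l => imp_congr_right fun _ => ?_
  rw [eval_smul_of_isHomogeneous (isHomogeneous_dl hF l)]
  constructor
  · intro h
    exact (mul_eq_zero.1 h).resolve_left (pow_ne_zero _ hc)
  · intro h
    rw [h, mul_zero]

end Vale.Agent.NagataCurves
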