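import Mathlib
import Vale.Agent.NagataCurves.Order

/-! Dimension of spaces of ternary forms, factors of forms, linear forms. -/

namespace Vale.Agent.NagataCurves

open MvPolynomial Module

theorem finrank_forms (N : ℕ) :
    finrank ℂ (homogeneousSubmodule (Fin 3) ℂ N) = (N + 2).choose 2 := by
  rw [homogeneousSubmodule_eq_finsupp_supported]
  rw [(AddMonoidAlgebra.supportedEquivFinsupp (R := ℂ) (S := ℂ)
    {d : Fin 3 →₀ ℕ | d.degree = N}).finrank_eq]
  have hS : {d : Fin 3 →₀ ℕ | d.degree = N} =
      ((Finset.univ : Finset (Fin 3)).finsuppAntidiag N : Set (Fin 3 →₀ ℕ)) := by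
    ext d
    simp [Finsupp.degree_eq_sum]
  rw [hS]
  rw [Module.finrank_finsupp_self]
  have hc : Fintype.card ((Finset.univ : Finset (Fin 3)).finsuppAntidiag N : Set (Fin 3 →₀ ℕ)) =
      ((Finset.univ : Finset (Fin 3)).finsuppAntidiag N).card := Fintype.card_coe _
  rw [hc, Finset.card_finsuppAntidiag_nat_eq_choose]
  simp only [Finset.card_univ, Fintype.card_fin]
  have : 3 + N - 1 = N + 2 := by omega
  rw [this]
  exact Nat.choose_symm_add (a := N) (b := 2)

instance finite_forms (N : ℕ) : Module.Finite ℂ (homogeneousSubmodule (Fin 3) ℂ N) :=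
  Module.finite_of_finrank_pos (by rw [finrank_forms]; exact Nat.choose_pos (by omega))

/-- the substitution `X_i ↦ T X_i` -/
noncomputable def scaleT {σ : Type*} (F : MvPolynomial σ ℂ) : Polynomial (MvPolynomial σ ℂ) :=
  aeval (fun i => Polynomial.X * Polynomial.C (X i : MvPolynomial σ ℂ)) F

theorem scaleT_of_isHomogeneous {σ : Type*} {F : MvPolynomial σ ℂ} {N : ℕ}
    (hF : F.IsHomogeneous N) : scaleT F = Polynomial.X ^ N * Polynomial.C F := by
  have hFs : F = ∑ d ∈ F.support, monomial d (coeff d F) := F.support_sum_monomial_coeff.symm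
  have key : ∀ d ∈ F.support, scaleT (monomial d (coeff d F)) =
      Polynomial.X ^ N * Polynomial.C (monomial d (coeff d F)) := by
    intro d hd
    have hd' : d.sum (fun _ e => e) = N := by
      have h1 := hF (mem_support_iff.1 hd)
      have h2 : Finsupp.degree d = N := by
        rw [Finsupp.degree_eq_weight_one]; exact h1
      rw [← h2, Finsupp.degree_apply]; rfl
    unfold scaleT
    rw [aeval_monomial]
    simp only [mul_pow, ← Polynomial.C_pow]
    rw [Finsupp.prod_mul]
    have e1 : (d.prod fun _ k => (Polynomial.X : Polynomial (MvPolynomial σ ℂ)) ^ k)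
        = Polynomial.X ^ N := by
      rw [Finsupp.prod, Finset.prod_pow_eq_pow_sum, ← hd', Finsupp.sum]
    have e2 : (d.prod fun i k => Polynomial.C ((X i : MvPolynomial σ ℂ) ^ k))
        = Polynomial.C (d.prod fun i k => (X i : MvPolynomial σ ℂ) ^ k) := by
      rw [Finsupp.prod, Finsupp.prod, map_prod]
    rw [e1, e2, monomial_eq (s := d)]
    have e3 : (algebraMap ℂ (Polynomial (MvPolynomial σ ℂ))) (coeff d F)
        = Polynomial.C (C (coeff d F)) := rfl
    rw [e3, map_mul]
    ring
  conv_lhs => rw [hFs]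
  unfold scaleT at key ⊢
  rw [map_sum, Finset.sum_congr rfl key, ← Finset.mul_sum, ← map_sum, ← hFs]

theorem scaleT_coeff {σ : Type*} (F : MvPolynomial σ ℂ) (k : ℕ) :
    (scaleT F).coeff k = homogeneousComponent k F := by
  have hF : F = ∑ i ∈ Finset.range (F.totalDegree + 1), homogeneousComponent i F :=
    (sum_homogeneousComponent F).symm
  have h1 : scaleT F = ∑ i ∈ Finset.range (F.totalDegree + 1),
      Polynomial.X ^ i * Polynomial.C (homogeneousComponent i F) := by
    conv_lhs => rw [hF]
    unfold scaleT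
    rw [map_sum]
    exact Finset.sum_congr rfl fun i _ =>
      scaleT_of_isHomogeneous (homogeneousComponent_isHomogeneous i F)
  rw [h1, Polynomial.finsetSum_coeff]
  simp only [mul_comm (Polynomial.X ^ _), Polynomial.coeff_C_mul_X_pow]
  rw [Finset.sum_ite_eq]
  split_ifs with h
  · rfl
  · rw [homogeneousComponent_eq_zero]
    simpa using h

theorem scaleT_mul {σ : Type*} (F G : MvPolynomial σ ℂ) :
    scaleT (F * G) = scaleT F * scaleT G := map_mul _ _ _

theorem scaleT_ne_zero {σ : Type*} {F : MvPolynomial σ ℂ} (hF : F ≠ 0) : scaleT F ≠ 0 := by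
  intro h
  apply hF
  rw [← sum_homogeneousComponent F]
  apply Finset.sum_eq_zero
  intro i _
  rw [← scaleT_coeff, h, Polynomial.coeff_zero]

/-- factors of a nonzero form are forms -/
theorem isHomogeneous_of_mul {σ : Type*} {G H : MvPolynomial σ ℂ} {N : ℕ}
    (hGH : (G * H).IsHomogeneous N) (h0 : G * H ≠ 0) : ∃ k, G.IsHomogeneous k := by
  have hG0 : G ≠ 0 := left_ne_zero_of_mul h0
  have hH0 : H ≠ 0 := right_ne_zero_of_mul h0
  have h1 := scaleT_of_isHomogeneous hGH
  rw [scaleT_mul] at h1
  have hd := Polynomial.natDegree_mul (scaleT_ne_zero hG0) (scaleT_ne_zero hH0)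
  have ht := Polynomial.natTrailingDegree_mul (scaleT_ne_zero hG0) (scaleT_ne_zero hH0)
  rw [h1] at hd ht
  have hm : (Polynomial.X ^ N * Polynomial.C (G * H) : Polynomial (MvPolynomial σ ℂ)) =
      Polynomial.monomial N (G * H) := by
    rw [mul_comm, Polynomial.C_mul_X_pow_eq_monomial]
  rw [hm, Polynomial.natDegree_monomial_eq _ h0] at hd
  rw [hm, Polynomial.natTrailingDegree_monomial h0] at ht
  have h2 := Polynomial.natTrailingDegree_le_natDegree (scaleT G)
  have h3 := Polynomial.natTrailingDegree_le_natDegree (scaleT H)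
  have h4 : (scaleT G).natTrailingDegree = (scaleT G).natDegree := by omega
  obtain ⟨k, hk⟩ : ∃ k, k = (scaleT G).natDegree := ⟨_, rfl⟩
  rw [← hk] at h4
  have hz : ∀ i, i ≠ k → homogeneousComponent i G = 0 := by
    intro i hi
    rw [← scaleT_coeff]
    rcases lt_or_gt_of_ne hi with h | h
    · exact Polynomial.coeff_eq_zero_of_lt_natTrailingDegree (by omega)
    · exact Polynomial.coeff_eq_zero_of_natDegree_lt (by omega)
  refine ⟨k, ?_⟩
  have hs : (∑ i ∈ Finset.range (G.totalDegree + 1), homogeneousComponent i G).IsHomogeneous k := by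
    apply IsHomogeneous.sum
    intro i _
    by_cases hi : i = k
    · rw [hi]; exact homogeneousComponent_isHomogeneous _ G
    · rw [hz i hi]
      exact (homogeneousSubmodule σ ℂ k).zero_mem
  rwa [sum_homogeneousComponent] at hs

/-- the linear form with coefficient vector `c` -/
noncomputable def linF (c : Fin 3 → ℂ) : MvPolynomial (Fin 3) ℂ := ∑ i, C (c i) * X i

theorem linF_isHomogeneous (c : Fin 3 → ℂ) : (linF c).IsHomogeneous 1 := by
  unfold linF
  apply IsHomogeneous.sum
  intro i _
  exact isHomogeneous_C_mul_X _ _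

theorem eval_linF (c v : Fin 3 → ℂ) : eval v (linF c) = ∑ i, c i * v i := by
  unfold linF
  rw [map_sum]
  simp

theorem exists_linF_ne_zero {v : Fin 3 → ℂ} (hv : v ≠ 0) : ∃ c, eval v (linF c) ≠ 0 := by
  obtain ⟨i, hi⟩ := Function.ne_iff.1 hv
  refine ⟨Pi.single i 1, ?_⟩
  rw [eval_linF]
  simpa [Pi.single_apply] using hi

theorem exists_linF_separating {v w : Fin 3 → ℂ} (h : w ∉ Submodule.span ℂ {v}) :
    ∃ c, eval v (linF c) = 0 ∧ eval w (linF c) ≠ 0 := by
  obtain ⟨f, hf, hle⟩ := Submodule.exists_le_ker_of_notMem h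
  refine ⟨fun i => f (Pi.single i 1), ?_, ?_⟩
  · have h1 : f v = 0 := hle (Submodule.mem_span_singleton_self v)
    rw [eval_linF, ← h1]
    conv_rhs => rw [← Finset.univ_sum_single v, map_sum]
    refine Finset.sum_congr rfl fun i _ => ?_
    have : (Pi.single i (v i) : Fin 3 → ℂ) = v i • Pi.single i 1 := by
      ext j; simp [Pi.single_apply]
    rw [this, map_smul, smul_eq_mul, mul_comm]
  · have h1 : eval w (linF fun i => f (Pi.single i 1)) = f w := by
      rw [eval_linF]
      conv_rhs => rw [← Finset.univ_sum_single w, map_sum]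
      refine Finset.sum_congr rfl fun i _ => ?_
      have : (Pi.single i (w i) : Fin 3 → ℂ) = w i • Pi.single i 1 := by
        ext j; simp [Pi.single_apply]
      rw [this, map_smul, smul_eq_mul, mul_comm]
    rw [h1]; exact hf

end Vale.Agent.NagataCurves
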