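import Mathlib
import Vale.Agent.NagataCurves.Forms

/-! A Bezout inequality for plane curves with multiplicities, by counting dimensions. -/

namespace Vale.Agent.NagataCurves

open MvPolynomial Module

theorem dl_add (l : List (Fin 3)) (F G : MvPolynomial (Fin 3) ℂ) :
    dl l (F + G) = dl l F + dl l G := by
  induction l with
  | nil => rfl
  | cons i l ih => rw [dl_cons, dl_cons, dl_cons, ih, map_add]

theorem dl_smul (l : List (Fin 3)) (c : ℂ) (F : MvPolynomial (Fin 3) ℂ) :
    dl l (c • F) = c • dl l F := by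
  induction l with
  | nil => rfl
  | cons i l ih => rw [dl_cons, dl_cons, ih, Derivation.map_smul]

/-- `F ↦ (∂_l F)(v)` as a linear map -/
noncomputable def dlEval (l : List (Fin 3)) (v : Fin 3 → ℂ) : MvPolynomial (Fin 3) ℂ →ₗ[ℂ] ℂ where
  toFun F := eval v (dl l F)
  map_add' F G := by rw [dl_add, map_add]
  map_smul' c F := by rw [dl_smul, smul_eval, RingHom.id_apply, smul_eq_mul]

theorem dl_perm {l l' : List (Fin 3)} (h : l.Perm l') (F : MvPolynomial (Fin 3) ℂ) :
    dl l F = dl l' F := by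
  induction h with
  | nil => rfl
  | cons i _ ih => rw [dl_cons, dl_cons, ih]
  | swap i j l => rw [dl_cons, dl_cons, dl_cons, dl_cons, pderiv_comm3]
  | trans _ _ ih1 ih2 => rw [ih1, ih2]

/-- the sorted list with multiplicities `α` -/
def sortedList (α : Fin 3 →₀ ℕ) : List (Fin 3) :=
  List.replicate (α 0) 0 ++ (List.replicate (α 1) 1 ++ List.replicate (α 2) 2)

theorem perm_sortedList (l : List (Fin 3)) :
    ∃ α : Fin 3 →₀ ℕ, α ∈ (Finset.univ : Finset (Fin 3)).finsuppAntidiag l.length ∧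
      l.Perm (sortedList α) := by
  induction l with
  | nil =>
    exact ⟨0, by simp, by simp [sortedList]⟩
  | cons i l ih =>
    obtain ⟨α, hα, hp⟩ := ih
    refine ⟨α + Finsupp.single i 1, ?_, ?_⟩
    · rw [Finset.mem_finsuppAntidiag] at hα ⊢
      refine ⟨?_, by simp⟩
      rw [List.length_cons, ← hα.1]
      simp only [Finsupp.coe_add, Pi.add_apply, Finset.sum_add_distrib]
      congr 1
      simp [Finsupp.single_apply]
    · refine (hp.cons i).trans ?_
      rw [List.perm_iff_count]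
      intro a
      unfold sortedList
      simp only [List.count_cons, List.count_append, List.count_replicate, Finsupp.coe_add,
        Pi.add_apply, Finsupp.single_apply]
      fin_cases i <;> fin_cases a <;> simp

variable {ι : Type*} [Fintype ι]

/-- polynomials vanishing to order at least `k i` at `v i` for all `i` -/
def WW (v : ι → Fin 3 → ℂ) (k : ι → ℕ) : Submodule ℂ (MvPolynomial (Fin 3) ℂ) where
  carrier := {g | ∀ i, OrdGE (k i) g (v i)}
  add_mem' h1 h2 := fun i => (h1 i).add (h2 i)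
  zero_mem' := fun _ => OrdGE.zero _ _
  smul_mem' c _ h := fun i => (h i).smul c

omit [Fintype ι] in
theorem mem_WW (v : ι → Fin 3 → ℂ) (k : ι → ℕ) (g : MvPolynomial (Fin 3) ℂ) :
    g ∈ WW v k ↔ ∀ i, OrdGE (k i) g (v i) := Iff.rfl

/-- the map collecting all derivatives of order `k i` at `v i` -/
noncomputable def jets (v : ι → Fin 3 → ℂ) (k : ι → ℕ) :
    MvPolynomial (Fin 3) ℂ →ₗ[ℂ]
      ((i : ι) → ((Finset.univ : Finset (Fin 3)).finsuppAntidiag (k i)) → ℂ) :=
  LinearMap.pi fun i => LinearMap.pi fun α => dlEval (sortedList α.1) (v i)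

omit [Fintype ι] in
theorem ordGE_of_jets {v : ι → Fin 3 → ℂ} {k : ι → ℕ} {M : ℕ} (hM : ∀ i, k i ≤ M)
    {u : MvPolynomial (Fin 3) ℂ} (hu : u.IsHomogeneous M) (h : jets v k u = 0) (i : ι) :
    OrdGE (k i + 1) u (v i) := by
  apply ordGE_of_top (hM i) hu
  intro l hl
  obtain ⟨α, hα, hp⟩ := perm_sortedList l
  rw [hl] at hα
  have h1 := congrFun (congrFun h i) ⟨α, hα⟩
  rw [dl_perm hp]
  exact h1

theorem finrank_jets (k : ι → ℕ) :
    finrank ℂ ((i : ι) → ((Finset.univ : Finset (Fin 3)).finsuppAntidiag (k i)) → ℂ) =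
      ∑ i, (k i + 2).choose 2 := by
  rw [Module.finrank_pi_fintype]
  refine Finset.sum_congr rfl fun i _ => ?_
  rw [Module.finrank_fintype_fun_eq_card, Fintype.card_coe,
    Finset.card_finsuppAntidiag_nat_eq_choose]
  simp only [Finset.card_univ, Fintype.card_fin]
  have : 3 + k i - 1 = k i + 2 := by omega
  rw [this]
  exact Nat.choose_symm_add (a := k i) (b := 2)

/-- upper bound: multiples of `F` impose few independent values modulo `W` -/
theorem finrank_mul_map_le {v : ι → Fin 3 → ℂ} {n m : ι → ℕ} {M : ℕ} (hM : ∀ i, n i ≤ M)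
    {F : MvPolynomial (Fin 3) ℂ} (hF : ∀ i, OrdGE (m i) F (v i)) {k : ι → ℕ}
    (hk : ∀ i, k i = m i + (n i + 1)) :
    finrank ℂ (((homogeneousSubmodule (Fin 3) ℂ M).map (LinearMap.mulLeft ℂ F)).map
      (WW v k).mkQ) ≤ ∑ i, (n i + 2).choose 2 := by
  classical
  set H := homogeneousSubmodule (Fin 3) ℂ M with hH
  let ψ : H →ₗ[ℂ] (MvPolynomial (Fin 3) ℂ ⧸ WW v k) :=
    ((WW v k).mkQ.comp (LinearMap.mulLeft ℂ F)).comp H.subtype
  let φ := (jets v n).comp H.subtype
  have hker : LinearMap.ker φ ≤ LinearMap.ker ψ := by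
    intro u hu
    rw [LinearMap.mem_ker] at hu ⊢
    change (WW v k).mkQ (F * u.1) = 0
    rw [Submodule.mkQ_apply, Submodule.Quotient.mk_eq_zero, mem_WW]
    intro i
    rw [hk]
    exact (hF i).mul (ordGE_of_jets hM u.2 hu i)
  have hrange : ((H.map (LinearMap.mulLeft ℂ F)).map (WW v k).mkQ) = LinearMap.range ψ := by
    rw [← Submodule.map_comp, LinearMap.range_comp, Submodule.range_subtype]
  rw [hrange]
  have h1 := ψ.finrank_range_add_finrank_ker
  have h2 := φ.finrank_range_add_finrank_ker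
  have h3 : finrank ℂ (LinearMap.ker φ) ≤ finrank ℂ (LinearMap.ker ψ) :=
    Submodule.finrank_mono hker
  have h4 : finrank ℂ (LinearMap.range φ) ≤ ∑ i, (n i + 2).choose 2 := by
    rw [← finrank_jets]
    exact Submodule.finrank_le _
  omega

theorem OrdGE.sum {κ : Type*} (s : Finset κ) {k : ℕ} {f : κ → MvPolynomial (Fin 3) ℂ}
    {v : Fin 3 → ℂ} (h : ∀ j ∈ s, OrdGE k (f j) v) : OrdGE k (∑ j ∈ s, f j) v := by
  classical
  induction s using Finset.induction_on with
  | empty => rw [Finset.sum_empty]; exact OrdGE.zero _ _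
  | insert a s ha ih =>
    rw [Finset.sum_insert ha]
    exact (h a (Finset.mem_insert_self a s)).add
      (ih fun j hj => h j (Finset.mem_insert_of_mem hj))

theorem OrdGE.pow {k : ℕ} {F : MvPolynomial (Fin 3) ℂ} {v : Fin 3 → ℂ} (h : eval v F = 0) :
    OrdGE k (F ^ k) v := by
  induction k with
  | zero => trivial
  | succ k ih =>
    rw [pow_succ]
    exact ih.mul (n := 1) ⟨h, fun _ => trivial⟩

theorem OrdGE.mul_right {n : ℕ} {G : MvPolynomial (Fin 3) ℂ} (F : MvPolynomial (Fin 3) ℂ)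
    {v : Fin 3 → ℂ} (hG : OrdGE n G v) : OrdGE n (G * F) v := by
  rw [mul_comm]; exact hG.mul_left F

/-- auxiliary forms: nonvanishing at `v i`, vanishing to high order at the other points -/
theorem exists_aux (v : ι → Fin 3 → ℂ) (hv0 : ∀ i, v i ≠ 0)
    (hv : ∀ i j, i ≠ j → v i ∉ Submodule.span ℂ {v j}) (k : ι → ℕ) (N : ℕ)
    (hN : ∑ j, (k j + 1) ≤ N) (i : ι) :
    ∃ A : MvPolynomial (Fin 3) ℂ, A.IsHomogeneous (N - k i) ∧ eval (v i) A ≠ 0 ∧
      ∀ j, j ≠ i → OrdGE (k j + 1) A (v j) := by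
  classical
  have hc : ∀ j, ∃ c, j ≠ i → eval (v j) (linF c) = 0 ∧ eval (v i) (linF c) ≠ 0 := by
    intro j
    by_cases h : j = i
    · exact ⟨0, fun h' => absurd h h'⟩
    · obtain ⟨c, hc⟩ := exists_linF_separating (hv i j (Ne.symm h))
      exact ⟨c, fun _ => hc⟩
  choose c hc using hc
  obtain ⟨d, hd⟩ := exists_linF_ne_zero (hv0 i)
  have hsum : ∑ j, (k j + 1) = (k i + 1) + ∑ j ∈ Finset.univ.erase i, (k j + 1) :=
    (Finset.add_sum_erase _ _ (Finset.mem_univ i)).symm
  refine ⟨(∏ j ∈ Finset.univ.erase i, linF (c j) ^ (k j + 1)) *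
    linF d ^ (N - k i - ∑ j ∈ Finset.univ.erase i, (k j + 1)), ?_, ?_, ?_⟩
  · have h1 : (∏ j ∈ Finset.univ.erase i, linF (c j) ^ (k j + 1)).IsHomogeneous
        (∑ j ∈ Finset.univ.erase i, (k j + 1)) := by
      apply IsHomogeneous.prod
      intro j _
      have := (linF_isHomogeneous (c j)).pow (k j + 1)
      simpa using this
    have h2 := (linF_isHomogeneous d).pow (N - k i - ∑ j ∈ Finset.univ.erase i, (k j + 1))
    have h3 := h1.mul h2
    have h4 : (∑ j ∈ Finset.univ.erase i, (k j + 1)) +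
        1 * (N - k i - ∑ j ∈ Finset.univ.erase i, (k j + 1)) = N - k i := by omega
    rwa [h4] at h3
  · rw [map_mul, map_prod, map_pow]
    refine mul_ne_zero (Finset.prod_ne_zero_iff.2 fun j hj => ?_) (pow_ne_zero _ hd)
    rw [map_pow]
    exact pow_ne_zero _ (hc j (Finset.ne_of_mem_erase hj)).2
  · intro j hj
    apply OrdGE.mul_right
    have hmem : j ∈ Finset.univ.erase i := Finset.mem_erase.2 ⟨hj, Finset.mem_univ j⟩
    rw [← Finset.mul_prod_erase _ _ hmem]
    apply OrdGE.mul_right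
    exact OrdGE.pow (hc j hj).1

theorem le_finrank_map (v : ι → Fin 3 → ℂ) (hv0 : ∀ i, v i ≠ 0)
    (hv : ∀ i j, i ≠ j → v i ∉ Submodule.span ℂ {v j}) (k : ι → ℕ) (N : ℕ)
    (hN : ∑ j, (k j + 1) ≤ N) {K : ι → ℕ} (hK : ∀ i, K i = k i + 1) :
    ∑ i, (k i + 2).choose 2 ≤
      finrank ℂ ((homogeneousSubmodule (Fin 3) ℂ N).map (WW v K).mkQ) := by
  classical
  choose A hA1 hA2 hA3 using exists_aux v hv0 hv k N hN
  let Φ : ((i : ι) → homogeneousSubmodule (Fin 3) ℂ (k i)) →ₗ[ℂ] MvPolynomial (Fin 3) ℂ :=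
    ∑ i, ((LinearMap.mulLeft ℂ (A i)).comp
      (homogeneousSubmodule (Fin 3) ℂ (k i)).subtype).comp (LinearMap.proj i)
  have hΦ : ∀ w, Φ w = ∑ i, A i * (w i).1 := by
    intro w
    simp [Φ, LinearMap.sum_apply]
  have hinj : Function.Injective ((WW v K).mkQ.comp Φ) := by
    rw [injective_iff_map_eq_zero]
    intro w hw
    rw [LinearMap.comp_apply, Submodule.mkQ_apply, Submodule.Quotient.mk_eq_zero, mem_WW] at hw
    funext i
    apply Subtype.ext
    have h1 := hw i
    rw [hΦ, ← Finset.add_sum_erase _ _ (Finset.mem_univ i), hK] at h1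
    have h2 : OrdGE (k i + 1) (∑ j ∈ Finset.univ.erase i, A j * (w j).1) (v i) := by
      apply OrdGE.sum
      intro j hj
      exact OrdGE.mul_right _ (hA3 j i (Finset.ne_of_mem_erase hj).symm)
    have h3 := h1.sub h2
    rw [add_sub_cancel_right] at h3
    exact eq_zero_of_ordGE (w i).2 (h3.of_mul (hA2 i))
  have h1 := LinearMap.finrank_range_of_inj hinj
  have h2 : finrank ℂ ((i : ι) → homogeneousSubmodule (Fin 3) ℂ (k i)) =
      ∑ i, (k i + 2).choose 2 := by
    rw [Module.finrank_pi_fintype]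
    exact Finset.sum_congr rfl fun i _ => finrank_forms _
  rw [← h2, ← h1]
  apply Submodule.finrank_mono
  rw [LinearMap.range_comp]
  apply Submodule.map_mono
  rintro _ ⟨w, rfl⟩
  rw [hΦ, mem_homogeneousSubmodule]
  apply IsHomogeneous.sum
  intro i _
  have h3 := (hA1 i).mul (w i).2
  have h4 : N - k i + k i = N := by
    have : k i + 1 ≤ ∑ j, (k j + 1) := Finset.single_le_sum (f := fun j => k j + 1)
      (fun _ _ => Nat.zero_le _) (Finset.mem_univ i)
    omega
  rwa [h4] at h3

theorem finrank_map_mul {H : Submodule ℂ (MvPolynomial (Fin 3) ℂ)} {F : MvPolynomial (Fin 3) ℂ}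
    (hF : F ≠ 0) : finrank ℂ (H.map (LinearMap.mulLeft ℂ F)) = finrank ℂ H := by
  have hinj : Function.Injective (LinearMap.mulLeft ℂ F) := fun a b h => by
    simpa [hF] using h
  exact (Submodule.equivMapOfInjective _ hinj H).finrank_eq.symm

/-- dimension drop under a quotient map is monotone -/
theorem finrank_map_diff {V Q : Type*} [AddCommGroup V] [Module ℂ V] [AddCommGroup Q] [Module ℂ Q]
    (π : V →ₗ[ℂ] Q) (I H : Submodule ℂ V) (hIH : I ≤ H) [Module.Finite ℂ H] :
    finrank ℂ (H.map π) + finrank ℂ I ≤ finrank ℂ H + finrank ℂ (I.map π) := by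
  have : Module.Finite ℂ I := Submodule.finiteDimensional_of_le hIH
  have key : ∀ K : Submodule ℂ V, Module.Finite ℂ K →
      finrank ℂ (K.map π) + finrank ℂ (LinearMap.ker (π.domRestrict K)) = finrank ℂ K := by
    intro K _
    have h1 := (π.domRestrict K).finrank_range_add_finrank_ker
    have h2 : LinearMap.range (π.domRestrict K) = K.map π := by
      ext q
      simp
    rwa [h2] at h1
  have hI := key I inferInstance
  have hH := key H inferInstance
  have hle : finrank ℂ (LinearMap.ker (π.domRestrict I)) ≤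
      finrank ℂ (LinearMap.ker (π.domRestrict H)) := by
    let φ : LinearMap.ker (π.domRestrict I) →ₗ[ℂ] LinearMap.ker (π.domRestrict H) :=
      LinearMap.codRestrict _ ((Submodule.inclusion hIH).comp
        (LinearMap.ker (π.domRestrict I)).subtype) (fun x => by
          rw [LinearMap.mem_ker]
          exact x.2)
    apply LinearMap.finrank_le_finrank_of_injective (f := φ)
    intro a b hab
    apply Subtype.ext
    apply Subtype.ext
    have := congrArg (fun y => (y.1.1 : V)) hab
    exact this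
  omega

theorem choose_two_identity (a b c : ℕ) :
    ((a + b + c + 2).choose 2 + (c + 2).choose 2 : ℕ) =
      a * b + (b + c + 2).choose 2 + (a + c + 2).choose 2 := by
  have h : ∀ n : ℕ, 2 * (n + 2).choose 2 = (n + 2) * (n + 1) := by
    intro n
    rw [Nat.choose_two_right]
    have : 2 ∣ (n + 2) * (n + 2 - 1) := by
      have := Nat.even_mul_succ_self (n + 1)
      rw [even_iff_two_dvd] at this
      rwa [mul_comm] at this
    rw [Nat.mul_div_cancel' this]
    rfl
  have h1 := h (a + b + c)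
  have h2 := h c
  have h3 := h (b + c)
  have h4 := h (a + c)
  have h5 : 2 * ((a + b + c + 2).choose 2 + (c + 2).choose 2) =
      2 * (a * b + (b + c + 2).choose 2 + (a + c + 2).choose 2) := by
    rw [mul_add, mul_add, mul_add, h1, h2, h3, h4]
    ring
  omega

theorem choose_two_identity' (m n : ℕ) :
    (m + n + 3).choose 2 = (m + 1) * (n + 1) + (n + 2).choose 2 + (m + 2).choose 2 := by
  have := choose_two_identity (m + 1) (n + 1) 0
  have e1 : m + 1 + (n + 1) + 0 + 2 = m + n + 3 + 1 := by ring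
  have h : ∀ n : ℕ, 2 * (n + 2).choose 2 = (n + 2) * (n + 1) := by
    intro n
    rw [Nat.choose_two_right]
    have : 2 ∣ (n + 2) * (n + 2 - 1) := by
      have := Nat.even_mul_succ_self (n + 1)
      rw [even_iff_two_dvd] at this
      rwa [mul_comm] at this
    rw [Nat.mul_div_cancel' this]
    rfl
  have h1 := h (m + n + 1)
  have h2 := h n
  have h3 := h m
  have h5 : 2 * ((m + n + 1 + 2).choose 2) =
      2 * ((m + 1) * (n + 1) + (n + 2).choose 2 + (m + 2).choose 2) := by
    rw [mul_add, mul_add, h1, h2, h3]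
    ring
  have e2 : m + n + 3 = m + n + 1 + 2 := by ring
  rw [e2]
  omega

/-- Bezout inequality with multiplicities (all multiplicities at least one). -/
theorem bezout_aux (v : ι → Fin 3 → ℂ) (hv0 : ∀ i, v i ≠ 0)
    (hv : ∀ i j, i ≠ j → v i ∉ Submodule.span ℂ {v j}) {a b : ℕ}
    {F G : MvPolynomial (Fin 3) ℂ} (hF : F.IsHomogeneous a) (hG : G.IsHomogeneous b)
    (hirr : Irreducible F) (hdvd : ¬ F ∣ G) (m n : ι → ℕ)
    (hm : ∀ i, OrdGE (m i + 1) F (v i)) (hn : ∀ i, OrdGE (n i + 1) G (v i)) :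
    ∑ i, (m i + 1) * (n i + 1) ≤ a * b := by
  classical
  have hF0 : F ≠ 0 := hirr.ne_zero
  have hG0 : G ≠ 0 := fun h => hdvd (h ▸ dvd_zero F)
  set c := ∑ j, (m j + n j + 1 + 1) with hc
  set N := a + b + c with hN
  let K : ι → ℕ := fun i => m i + n i + 1 + 1
  let π := (WW v K).mkQ
  let H := fun M : ℕ => homogeneousSubmodule (Fin 3) ℂ M
  let U := (H (b + c)).map (LinearMap.mulLeft ℂ F)
  let V := (H (a + c)).map (LinearMap.mulLeft ℂ G)
  have hUle : U ≤ H N := by
    rintro _ ⟨u, hu, rfl⟩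
    have h1 := hF.mul (show u.IsHomogeneous (b + c) from hu)
    have h2 : a + (b + c) = N := by omega
    rw [h2] at h1
    exact h1
  have hVle : V ≤ H N := by
    rintro _ ⟨u, hu, rfl⟩
    have h1 := hG.mul (show u.IsHomogeneous (a + c) from hu)
    have h2 : b + (a + c) = N := by omega
    rw [h2] at h1
    exact h1
  have : Module.Finite ℂ U := Submodule.finiteDimensional_of_le hUle
  have : Module.Finite ℂ V := Submodule.finiteDimensional_of_le hVle
  have hUV : U ⊓ V ≤ (H c).map (LinearMap.mulLeft ℂ (F * G)) := by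
    rintro w ⟨⟨u, hu, rfl⟩, ⟨t, ht, hut⟩⟩
    have h1 : G * t = F * u := hut
    have hprime : Prime F := hirr.prime
    have h2 : F ∣ t := (hprime.dvd_or_dvd (h1 ▸ Dvd.intro _ rfl : F ∣ G * t)).resolve_left hdvd
    obtain ⟨w, rfl⟩ := h2
    have h3 : u = G * w := by
      apply mul_left_cancel₀ hF0
      rw [← h1]; ring
    by_cases hw : w = 0
    · refine ⟨0, (H c).zero_mem, ?_⟩
      simp [h3, hw]
    · obtain ⟨k, hk⟩ := isHomogeneous_of_mul (G := w) (H := F) (N := a + c)
        (by rw [mul_comm]; exact ht) (mul_ne_zero hw hF0)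
      have hkc : k = c := by
        have h4 := (hF.mul hk).inj_right (show (F * w).IsHomogeneous (a + c) from ht)
          (mul_ne_zero hF0 hw)
        omega
      refine ⟨w, hkc ▸ hk, ?_⟩
      simp only [LinearMap.mulLeft_apply]
      rw [h3]; ring
  -- dimension of U + V
  have hsup := Submodule.finrank_sup_add_finrank_inf_eq U V
  have hU : finrank ℂ U = (b + c + 2).choose 2 := by
    rw [finrank_map_mul hF0, finrank_forms]
  have hV : finrank ℂ V = (a + c + 2).choose 2 := by
    rw [finrank_map_mul hG0, finrank_forms]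
  have hinf : finrank ℂ (U ⊓ V : Submodule ℂ (MvPolynomial (Fin 3) ℂ)) ≤ (c + 2).choose 2 := by
    have h1 := Submodule.finrank_mono hUV
    rwa [finrank_map_mul (mul_ne_zero hF0 hG0), finrank_forms] at h1
  -- images modulo W
  have hbound := finrank_map_diff π (U ⊔ V) (H N) (sup_le hUle hVle)
  have hlow : ∑ i, (m i + n i + 1 + 2).choose 2 ≤ finrank ℂ ((H N).map π) :=
    le_finrank_map v hv0 hv (fun i => m i + n i + 1) N (by omega) (fun i => rfl)
  have hupU : finrank ℂ (U.map π) ≤ ∑ i, (n i + 2).choose 2 := by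
    apply finrank_mul_map_le (m := fun i => m i + 1) (n := n)
    · intro i
      have : m i + n i + 1 + 1 ≤ c := Finset.single_le_sum (f := fun j => m j + n j + 1 + 1)
        (fun _ _ => Nat.zero_le _) (Finset.mem_univ i)
      omega
    · exact hm
    · intro i; simp only [K]; omega
  have hupV : finrank ℂ (V.map π) ≤ ∑ i, (m i + 2).choose 2 := by
    apply finrank_mul_map_le (m := fun i => n i + 1) (n := m)
    · intro i
      have : m i + n i + 1 + 1 ≤ c := Finset.single_le_sum (f := fun j => m j + n j + 1 + 1)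
        (fun _ _ => Nat.zero_le _) (Finset.mem_univ i)
      omega
    · exact hn
    · intro i; simp only [K]; omega
  have hmap : finrank ℂ ((U ⊔ V).map π) ≤ finrank ℂ (U.map π) + finrank ℂ (V.map π) := by
    rw [Submodule.map_sup]
    exact Submodule.finrank_add_le_finrank_add_finrank _ _
  have hHN : finrank ℂ (H N) = (a + b + c + 2).choose 2 := finrank_forms _
  have hid := choose_two_identity a b c
  have hsum : ∑ i, (m i + n i + 1 + 2).choose 2 =
      ∑ i, (m i + 1) * (n i + 1) + ∑ i, (n i + 2).choose 2 + ∑ i, (m i + 2).choose 2 := by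
    rw [← Finset.sum_add_distrib, ← Finset.sum_add_distrib]
    exact Finset.sum_congr rfl fun i _ => choose_two_identity' _ _
  omega

/-- Bezout inequality with arbitrary multiplicities. -/
theorem bezout (v : ι → Fin 3 → ℂ) (hv0 : ∀ i, v i ≠ 0)
    (hv : ∀ i j, i ≠ j → v i ∉ Submodule.span ℂ {v j}) {a b : ℕ}
    {F G : MvPolynomial (Fin 3) ℂ} (hF : F.IsHomogeneous a) (hG : G.IsHomogeneous b)
    (hirr : Irreducible F) (hdvd : ¬ F ∣ G) (m n : ι → ℕ)
    (hm : ∀ i, OrdGE (m i) F (v i)) (hn : ∀ i, OrdGE (n i) G (v i)) :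
    ∑ i, m i * n i ≤ a * b := by
  classical
  let κ := {i : ι // m i ≠ 0 ∧ n i ≠ 0}
  have h1 := bezout_aux (ι := κ) (fun i => v i.1) (fun i => hv0 i.1)
    (fun i j hij => hv i.1 j.1 fun h => hij (Subtype.ext h)) hF hG hirr hdvd
    (fun i => m i.1 - 1) (fun i => n i.1 - 1)
    (fun i => by
      have : m i.1 - 1 + 1 = m i.1 := Nat.sub_add_cancel (Nat.one_le_iff_ne_zero.2 i.2.1)
      rw [this]; exact hm _)
    (fun i => by
      have : n i.1 - 1 + 1 = n i.1 := Nat.sub_add_cancel (Nat.one_le_iff_ne_zero.2 i.2.2)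
      rw [this]; exact hn _)
  refine le_trans (le_of_eq ?_) h1
  have h2 : ∑ i : κ, (m i.1 - 1 + 1) * (n i.1 - 1 + 1) = ∑ i : κ, m i.1 * n i.1 :=
    Finset.sum_congr rfl fun i _ => by
      rw [Nat.sub_add_cancel (Nat.one_le_iff_ne_zero.2 i.2.1),
        Nat.sub_add_cancel (Nat.one_le_iff_ne_zero.2 i.2.2)]
  rw [h2]
  have h3 : ∑ i, m i * n i = ∑ i ∈ Finset.univ.filter (fun i => m i ≠ 0 ∧ n i ≠ 0), m i * n i := by
    symm
    apply Finset.sum_filter_of_ne
    intro i _ hi
    exact ⟨left_ne_zero_of_mul hi, right_ne_zero_of_mul hi⟩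
  rw [h3]
  exact Finset.sum_subtype (Finset.univ.filter (fun i => m i ≠ 0 ∧ n i ≠ 0)) (by simp)
    (fun i => m i * n i)

end Vale.Agent.NagataCurves
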