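import Mathlib

/-! Definitions for Nagata-type statements on plane curves through very general points. -/

namespace Vale.Agent.NagataCurves

open MvPolynomial

/-- the complex projective plane -/
abbrev P2 : Type := Projectivization ℂ (Fin 3 → ℂ)

/-- homogeneous coordinates of all members of a tuple of points -/
noncomputable def coords {r : ℕ} (p : Fin r → P2) : Fin r × Fin 3 → ℂ :=
  fun a => (p a.1).rep a.2

/-- polynomials that are homogeneous in each of the `r` groups of three variables -/
def IsMultihomogeneous {r : ℕ} (H : MvPolynomial (Fin r × Fin 3) ℂ) : Prop :=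
  ∃ n : Fin r → ℕ, ∀ i,
    IsWeightedHomogeneous (fun a : Fin r × Fin 3 => if a.1 = i then 1 else 0) H (n i)

/-- Zariski-closed subsets of `(P^2)^r` -/
def IsZariskiClosed {r : ℕ} (Z : Set (Fin r → P2)) : Prop :=
  ∃ S : Set (MvPolynomial (Fin r × Fin 3) ℂ), (∀ H ∈ S, IsMultihomogeneous H) ∧
    Z = {p | ∀ H ∈ S, eval (coords p) H = 0}

/-- `P` holds for every tuple of pairwise distinct points outside one countable union of
proper Zariski-closed subsets -/
def VeryGeneral (r : ℕ) (P : (Fin r → P2) → Prop) : Prop :=
  ∃ Z : ℕ → Set (Fin r → P2),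
    (∀ k, IsZariskiClosed (Z k) ∧ ∃ p, Function.Injective p ∧ p ∉ Z k) ∧
    ∀ p, Function.Injective p → (∀ k, p ∉ Z k) → P p

/-- multiplicity of the curve `F = 0` at `p`: the least order of a nonvanishing derivative -/
noncomputable def mult (F : MvPolynomial (Fin 3) ℂ) (p : P2) : ℕ :=
  sInf {k | ∃ l : List (Fin 3), l.length = k ∧
    eval p.rep (l.foldr (fun i G => pderiv i G) F) ≠ 0}

end Vale.Agent.NagataCurves
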