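import Mathlib
import Vale.Agent.NagataCurves.Defs

/-! Very general tuples have algebraically independent affine coordinates. -/

namespace Vale.Agent.NagataCurves

open MvPolynomial

/-- affine coordinates of a tuple of points -/
noncomputable def aff {r : ℕ} (p : Fin r → P2) : Fin r × Fin 2 → ℂ :=
  fun a => (p a.1).rep a.2.castSucc / (p a.1).rep 2

/-- homogenized monomial -/
noncomputable def mon {r : ℕ} (N : ℕ) (d : Fin r × Fin 2 →₀ ℕ) : MvPolynomial (Fin r × Fin 3) ℂ :=
  ∏ i : Fin r, (X (i, 0) ^ d (i, 0) * X (i, 1) ^ d (i, 1) * X (i, 2) ^ (N - d (i, 0) - d (i, 1)))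

/-- multihomogenization, times the product of the last coordinates -/
noncomputable def mhom {r : ℕ} (g : MvPolynomial (Fin r × Fin 2) ℚ) :
    MvPolynomial (Fin r × Fin 3) ℂ :=
  (∑ d ∈ g.support, C (algebraMap ℚ ℂ (coeff d g)) * mon g.totalDegree d) *
    ∏ i : Fin r, X (i, 2)

theorem le_totalDegree_pair {r : ℕ} {g : MvPolynomial (Fin r × Fin 2) ℚ} {d : Fin r × Fin 2 →₀ ℕ}
    (hd : d ∈ g.support) (i : Fin r) : d (i, 0) + d (i, 1) ≤ g.totalDegree := by
  have h1 : d.sum (fun _ e => e) ≤ g.totalDegree := le_totalDegree hd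
  have h2 : d.sum (fun _ e => e) = ∑ a, d a := by
    rw [Finsupp.sum_fintype]
    intro; rfl
  rw [h2, Fintype.sum_prod_type] at h1
  have h3 : ∑ j : Fin 2, d (i, j) ≤ ∑ x : Fin r, ∑ y : Fin 2, d (x, y) :=
    Finset.single_le_sum (f := fun x => ∑ y : Fin 2, d (x, y)) (fun _ _ => Nat.zero_le _)
      (Finset.mem_univ i)
  rw [Fin.sum_univ_two] at h3
  exact h3.trans h1

theorem isMultihomogeneous_mhom {r : ℕ} (g : MvPolynomial (Fin r × Fin 2) ℚ) :
    IsMultihomogeneous (mhom g) := by
  classical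
  refine ⟨fun _ => g.totalDegree + 1, fun i => ?_⟩
  unfold mhom
  set w : Fin r × Fin 3 → ℕ := fun a => if a.1 = i then 1 else 0 with hw
  have hX : ∀ a, IsWeightedHomogeneous w (X a : MvPolynomial (Fin r × Fin 3) ℂ) (w a) :=
    fun a => isWeightedHomogeneous_X _ _ _
  apply IsWeightedHomogeneous.mul
  · apply IsWeightedHomogeneous.sum
    intro d hd
    have h1 : IsWeightedHomogeneous w (mon (r := r) g.totalDegree d) g.totalDegree := by
      unfold mon
      have h2 : IsWeightedHomogeneous w (∏ k : Fin r, ((X (k, 0) : MvPolynomial (Fin r × Fin 3) ℂ) ^ d (k, 0) *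
          X (k, 1) ^ d (k, 1) * X (k, 2) ^ (g.totalDegree - d (k, 0) - d (k, 1))))
          (∑ k : Fin r, (d (k, 0) • w (k, 0) + d (k, 1) • w (k, 1) +
            (g.totalDegree - d (k, 0) - d (k, 1)) • w (k, 2))) := by
        apply IsWeightedHomogeneous.prod
        intro k _
        exact (((hX _).pow _).mul ((hX _).pow _)).mul ((hX _).pow _)
      have h3 : ∑ k : Fin r, (d (k, 0) • w (k, 0) + d (k, 1) • w (k, 1) +
            (g.totalDegree - d (k, 0) - d (k, 1)) • w (k, 2)) = g.totalDegree := by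
        rw [Finset.sum_eq_single i]
        · have := le_totalDegree_pair hd i
          simp [hw]
          omega
        · intro k _ hk
          simp [hw, hk]
        · intro h; exact absurd (Finset.mem_univ i) h
      rwa [h3] at h2
    have h4 := (isWeightedHomogeneous_C w (algebraMap ℚ ℂ (coeff d g))).mul h1
    rwa [zero_add] at h4
  · have h2 : IsWeightedHomogeneous w (∏ k : Fin r, (X (k, 2) : MvPolynomial (Fin r × Fin 3) ℂ))
        (∑ k : Fin r, w (k, 2)) := by
      apply IsWeightedHomogeneous.prod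
      intro k _
      exact hX _
    have h3 : ∑ k : Fin r, w (k, 2) = 1 := by simp [hw]
    rwa [h3] at h2

theorem eval_mhom {r : ℕ} (g : MvPolynomial (Fin r × Fin 2) ℚ) (p : Fin r → P2)
    (hz : ∀ i, (p i).rep 2 ≠ 0) :
    eval (coords p) (mhom g) =
      ((∏ i, (p i).rep 2 ^ g.totalDegree) * aeval (aff p) g) * ∏ i, (p i).rep 2 := by
  unfold mhom
  rw [map_mul, map_prod, map_sum]
  have hX : ∀ a, eval (coords p) (X a) = (p a.1).rep a.2 := fun a => by
    rw [eval_X]; rfl
  simp only [hX]
  congr 1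
  have hg : aeval (aff p) g = ∑ d ∈ g.support, algebraMap ℚ ℂ (coeff d g) * ∏ i, aff p i ^ d i := by
    rw [aeval_eq_eval₂Hom, coe_eval₂Hom, eval₂_eq']
  rw [hg, Finset.mul_sum]
  refine Finset.sum_congr rfl fun d hd => ?_
  rw [map_mul, eval_C]
  unfold mon
  rw [map_prod]
  simp only [map_mul, map_pow, hX]
  have h1 : ∏ a : Fin r × Fin 2, aff p a ^ d a =
      ∏ i : Fin r, (aff p (i, 0) ^ d (i, 0) * aff p (i, 1) ^ d (i, 1)) := by
    rw [Fintype.prod_prod_type]
    exact Finset.prod_congr rfl fun i _ => Fin.prod_univ_two _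
  rw [h1]
  have h2 : ∏ i : Fin r, ((p i).rep 0 ^ d (i, 0) * (p i).rep 1 ^ d (i, 1) *
      (p i).rep 2 ^ (g.totalDegree - d (i, 0) - d (i, 1))) =
      (∏ i, (p i).rep 2 ^ g.totalDegree) *
        ∏ i : Fin r, (aff p (i, 0) ^ d (i, 0) * aff p (i, 1) ^ d (i, 1)) := by
    rw [← Finset.prod_mul_distrib]
    refine Finset.prod_congr rfl fun i _ => ?_
    have h3 := le_totalDegree_pair hd i
    obtain ⟨c, hc⟩ : ∃ c, g.totalDegree = c + d (i, 0) + d (i, 1) :=
      ⟨g.totalDegree - d (i, 0) - d (i, 1), by omega⟩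
    have h4 : g.totalDegree - d (i, 0) - d (i, 1) = c := by omega
    rw [h4, hc, pow_add, pow_add]
    unfold aff
    have hz' := hz i
    simp only [Fin.castSucc_zero, Fin.castSucc_one]
    rw [div_pow, div_pow]
    field_simp
  rw [h2]
  ring

theorem exists_generic (r : ℕ) :
    ∃ u : Fin r × Fin 2 → ℂ, AlgebraicIndependent ℚ u := by
  obtain ⟨s, hs⟩ := exists_isTranscendenceBasis ℚ ℂ
  have h1 : Cardinal.mk ℂ = Cardinal.mk s :=
    IsAlgClosed.cardinal_eq_cardinal_transcendence_basis_of_aleph0_lt' (R := ℚ)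
      _ hs (by simp) (by simp [Cardinal.aleph0_lt_continuum])
  have h2 : Infinite s := by
    rw [Cardinal.infinite_iff, ← h1]
    simp [Cardinal.aleph0_le_continuum]
  obtain ⟨f⟩ : Nonempty (Fin r × Fin 2 ↪ s) := by
    obtain ⟨e⟩ : Nonempty (ℕ ↪ s) := ⟨Infinite.natEmbedding s⟩
    exact ⟨(Fintype.equivFin (Fin r × Fin 2)).toEmbedding.trans
      ((Fin.valEmbedding).trans e)⟩
  exact ⟨fun a => ((f a : s) : ℂ), hs.1.comp f f.injective⟩

/-- sufficient criterion: it is enough to treat tuples with algebraically independent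
affine coordinates -/
theorem veryGeneral_of_generic {r : ℕ} {P : (Fin r → P2) → Prop}
    (h : ∀ p : Fin r → P2, (∀ i, (p i).rep 2 ≠ 0) → AlgebraicIndependent ℚ (aff p) → P p) :
    VeryGeneral r P := by
  classical
  have hcount : Countable (MvPolynomial (Fin r × Fin 2) ℚ) := by
    rw [← Cardinal.mk_le_aleph0_iff]
    refine MvPolynomial.cardinalMk_le_max.trans ?_
    simp
    have hr : ((r * 2 : ℕ) : Cardinal) ≤ Cardinal.aleph0 := (Cardinal.natCast_lt_aleph0).le
    simpa using hr
  have hnonempty : Nonempty {g : MvPolynomial (Fin r × Fin 2) ℚ // g ≠ 0} := ⟨⟨1, one_ne_zero⟩⟩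
  obtain ⟨e, he⟩ := exists_surjective_nat {g : MvPolynomial (Fin r × Fin 2) ℚ // g ≠ 0}
  obtain ⟨u, hu⟩ := exists_generic r
  refine ⟨fun k => {p | ∀ H ∈ ({mhom (e k).1} : Set _), eval (coords p) H = 0}, ?_, ?_⟩
  · intro k
    refine ⟨⟨{mhom (e k).1}, ?_, rfl⟩, ?_⟩
    · intro H hH
      rw [Set.mem_singleton_iff.1 hH]
      exact isMultihomogeneous_mhom _
    · have hne : ∀ i : Fin r, (![u (i, 0), u (i, 1), 1] : Fin 3 → ℂ) ≠ 0 := by
        intro i h0
        have := congrFun h0 2
        simp at this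
      let p : Fin r → P2 := fun i => Projectivization.mk ℂ _ (hne i)
      have hp : ∀ i, ∃ c : ℂˣ, c • (![u (i, 0), u (i, 1), 1] : Fin 3 → ℂ) = (p i).rep := fun i =>
        Projectivization.exists_smul_eq_mk_rep ℂ _ (hne i)
      choose c hc using hp
      have hz : ∀ i, (p i).rep 2 = c i := by
        intro i
        rw [← hc i]
        simp [Units.smul_def]
      have hz' : ∀ i, (p i).rep 2 ≠ 0 := fun i => by rw [hz]; exact (c i).ne_zero
      have haff : aff p = u := by
        funext a
        obtain ⟨i, j⟩ := a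
        unfold aff
        rw [hz i, ← hc i]
        fin_cases j
        · simp [Units.smul_def]
        · simp [Units.smul_def]
      refine ⟨p, ?_, ?_⟩
      · intro i j hij
        have h1 : u (i, 0) = u (j, 0) := by
          rw [← haff]
          unfold aff
          simp only [hij]
        have h2 := hu.injective h1
        exact (Prod.mk.inj h2).1
      · intro hmem
        have h1 := hmem _ (Set.mem_singleton _)
        rw [eval_mhom _ p hz', haff] at h1
        have h2 : aeval u (e k).1 ≠ 0 := fun h0 =>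
          (e k).2 ((algebraicIndependent_iff.1 hu) _ h0)
        have h3 : (∏ i, (p i).rep 2 ^ (e k).1.totalDegree) ≠ 0 :=
          Finset.prod_ne_zero_iff.2 fun i _ => pow_ne_zero _ (hz' i)
        have h4 : (∏ i, (p i).rep 2) ≠ 0 := Finset.prod_ne_zero_iff.2 fun i _ => hz' i
        exact mul_ne_zero (mul_ne_zero h3 h2) h4 h1
  · intro p _ hp
    have key : ∀ g : MvPolynomial (Fin r × Fin 2) ℚ, g ≠ 0 → eval (coords p) (mhom g) ≠ 0 := by
      intro g hg h0
      obtain ⟨k, hk⟩ := he ⟨g, hg⟩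
      apply hp k
      intro H hH
      rw [Set.mem_singleton_iff.1 hH, hk]
      exact h0
    have hz : ∀ i, (p i).rep 2 ≠ 0 := by
      have h1 := key 1 one_ne_zero
      unfold mhom at h1
      rw [map_mul, map_prod] at h1
      have h2 := right_ne_zero_of_mul h1
      rw [Finset.prod_ne_zero_iff] at h2
      intro i
      have := h2 i (Finset.mem_univ i)
      rwa [eval_X] at this
    refine h p hz ?_
    rw [algebraicIndependent_iff]
    intro g hg
    by_contra hg0
    apply key g hg0
    rw [eval_mhom g p hz, hg, mul_zero, zero_mul]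

end Vale.Agent.NagataCurves
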