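import Mathlib
import Vale.Agent.NagataCurves.Bezout

/-! Derivations of the field of complex numbers and their action on forms. -/

namespace Vale.Agent.NagataCurves

open MvPolynomial
open scoped TensorProduct

theorem formallySmooth_charZero (K L : Type*) [Field K] [Field L] [Algebra K L] [CharZero K] :
    Algebra.FormallySmooth K L := by
  obtain ⟨s, hs⟩ := exists_isTranscendenceBasis K L
  have h1 : Algebra.IsAlgebraic (IntermediateField.adjoin K (Set.range ((↑) : s → L))) L :=
    hs.isAlgebraic_field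
  have : CharZero (IntermediateField.adjoin K (Set.range ((↑) : s → L))) := inferInstance
  have : Algebra.IsSeparable (IntermediateField.adjoin K (Set.range ((↑) : s → L))) L := inferInstance
  exact Algebra.FormallySmooth.of_algebraicIndependent_of_isSeparable hs.1

/-- derivations extend along formally smooth extensions of a ring by a field -/
theorem exists_derivation_extension (R S T : Type*) [CommRing R] [CommRing S] [Field T]
    [Algebra R S] [Algebra R T] [Algebra S T] [IsScalarTower R S T] [Algebra.FormallySmooth S T]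
    (D : Derivation R S T) : ∃ δ : Derivation R T T, ∀ s, δ (algebraMap S T s) = D s := by
  have hinj : Function.Injective (KaehlerDifferential.mapBaseChange R S T) := by
    rw [injective_iff_map_eq_zero]
    intro x hx
    obtain ⟨y, rfl⟩ := (Algebra.H1Cotangent.exact_δ_mapBaseChange R S T x).1 hx
    rw [Subsingleton.elim y 0, map_zero]
  obtain ⟨g, hg⟩ := LinearMap.exists_leftInverse_of_injective
    (KaehlerDifferential.mapBaseChange R S T) (LinearMap.ker_eq_bot.2 hinj)
  let φ : T ⊗[S] Ω[S⁄R] →ₗ[T] T := D.liftKaehlerDifferential.liftBaseChange T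
  refine ⟨(φ.comp g).compDer (KaehlerDifferential.D R T), fun s => ?_⟩
  have h1 : KaehlerDifferential.D R T (algebraMap S T s) =
      KaehlerDifferential.mapBaseChange R S T (1 ⊗ₜ KaehlerDifferential.D R S s) := by
    simp
  change φ (g (KaehlerDifferential.D R T (algebraMap S T s))) = D s
  rw [h1]
  have h2 := LinearMap.congr_fun hg (1 ⊗ₜ KaehlerDifferential.D R S s)
  change g _ = _ at h2
  rw [h2]
  simp [φ]

open scoped IntermediateField.algebraAdjoinAdjoin in
theorem exists_derivation {κ : Type*} (v : κ → ℂ) (hv : AlgebraicIndependent ℚ v) (w : κ → ℂ) :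
    ∃ δ : Derivation ℚ ℂ ℂ, ∀ i, δ (v i) = w i := by
  have h1 : Algebra.FormallySmooth (Algebra.adjoin ℚ (Set.range v))
      (IntermediateField.adjoin ℚ (Set.range v)) := .of_isLocalization (nonZeroDivisors _)
  have h2 : Algebra.FormallySmooth (IntermediateField.adjoin ℚ (Set.range v)) ℂ :=
    formallySmooth_charZero _ _
  have h3 : Algebra.FormallySmooth (Algebra.adjoin ℚ (Set.range v)) ℂ :=
    .comp _ (IntermediateField.adjoin ℚ (Set.range v)) _
  let e := hv.aevalEquiv
  let _ : Algebra (MvPolynomial κ ℚ) ℂ := (aeval v).toRingHom.toAlgebra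
  have hsm : ∀ (p : MvPolynomial κ ℚ) (z : ℂ), p • z = aeval v p * z := fun p z => rfl
  have : IsScalarTower ℚ (MvPolynomial κ ℚ) ℂ := IsScalarTower.of_algebraMap_eq fun q => by
    change algebraMap ℚ ℂ q = aeval v (algebraMap ℚ (MvPolynomial κ ℚ) q)
    rw [AlgHom.commutes]
  let D0 : Derivation ℚ (MvPolynomial κ ℚ) ℂ := mkDerivation ℚ w
  have he : ∀ a : Algebra.adjoin ℚ (Set.range v), aeval v (e.symm a) = (a : ℂ) := by
    intro a
    have := hv.algebraMap_aevalEquiv (e.symm a)
    rw [AlgEquiv.apply_symm_apply] at this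
    exact this.symm
  let D : Derivation ℚ (Algebra.adjoin ℚ (Set.range v)) ℂ :=
    Derivation.mk' ((D0 : MvPolynomial κ ℚ →ₗ[ℚ] ℂ).comp e.symm.toLinearMap) (by
      intro a b
      change D0 (e.symm (a * b)) = (a : ℂ) * D0 (e.symm b) + (b : ℂ) * D0 (e.symm a)
      rw [map_mul, Derivation.leibniz, hsm, hsm, he, he])
  obtain ⟨δ, hδ⟩ := exists_derivation_extension ℚ (Algebra.adjoin ℚ (Set.range v)) ℂ D
  refine ⟨δ, fun i => ?_⟩
  have h4 := hδ (e (X i))
  have h5 : algebraMap (Algebra.adjoin ℚ (Set.range v)) ℂ (e (X i)) = v i := by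
    rw [hv.algebraMap_aevalEquiv, aeval_X]
  rw [h5] at h4
  rw [h4]
  change D0 (e.symm (e (X i))) = w i
  rw [AlgEquiv.symm_apply_apply]
  exact mkDerivation_X _ _ _

/-- apply a derivation of the constants to the coefficients -/
noncomputable def dcoeff (δ : Derivation ℚ ℂ ℂ) (F : MvPolynomial (Fin 3) ℂ) :
    MvPolynomial (Fin 3) ℂ :=
  ∑ d ∈ F.support, monomial d (δ (coeff d F))

theorem coeff_dcoeff (δ : Derivation ℚ ℂ ℂ) (F : MvPolynomial (Fin 3) ℂ) (d : Fin 3 →₀ ℕ) :
    coeff d (dcoeff δ F) = δ (coeff d F) := by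
  classical
  unfold dcoeff
  rw [coeff_sum]
  simp only [coeff_monomial]
  rw [Finset.sum_ite_eq']
  split_ifs with h
  · rfl
  · rw [notMem_support_iff.1 h, map_zero]

theorem dcoeff_add (δ : Derivation ℚ ℂ ℂ) (F G : MvPolynomial (Fin 3) ℂ) :
    dcoeff δ (F + G) = dcoeff δ F + dcoeff δ G := by
  ext d
  rw [coeff_dcoeff, coeff_add, map_add, coeff_add, coeff_dcoeff, coeff_dcoeff]

theorem dcoeff_mul_X (δ : Derivation ℚ ℂ ℂ) (F : MvPolynomial (Fin 3) ℂ) (i : Fin 3) :
    dcoeff δ (F * X i) = dcoeff δ F * X i := by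
  classical
  ext d
  rw [coeff_dcoeff, coeff_mul_X', coeff_mul_X', coeff_dcoeff]
  split_ifs <;> simp

theorem dcoeff_C (δ : Derivation ℚ ℂ ℂ) (a : ℂ) : dcoeff δ (C a) = C (δ a) := by
  classical
  ext d
  rw [coeff_dcoeff, coeff_C, coeff_C]
  split_ifs <;> simp

theorem isHomogeneous_dcoeff (δ : Derivation ℚ ℂ ℂ) {F : MvPolynomial (Fin 3) ℂ} {N : ℕ}
    (hF : F.IsHomogeneous N) : (dcoeff δ F).IsHomogeneous N := by
  intro d hd
  rw [coeff_dcoeff] at hd
  apply hF
  intro h
  rw [h, map_zero] at hd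
  exact hd rfl

theorem pderiv_dcoeff (δ : Derivation ℚ ℂ ℂ) (F : MvPolynomial (Fin 3) ℂ) (i : Fin 3) :
    pderiv i (dcoeff δ F) = dcoeff δ (pderiv i F) := by
  ext d
  rw [coeff_pderiv, coeff_dcoeff, coeff_dcoeff, coeff_pderiv]
  have h : δ ((d i : ℂ) + 1) = 0 := by
    rw [map_add, Derivation.map_one_eq_zero, Derivation.map_natCast, add_zero]
  rw [Derivation.leibniz, h, smul_zero, zero_add, smul_eq_mul, mul_comm]

/-- chain rule -/
theorem deriv_eval (δ : Derivation ℚ ℂ ℂ) (F : MvPolynomial (Fin 3) ℂ) (v : Fin 3 → ℂ) :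
    δ (eval v F) = eval v (dcoeff δ F) + ∑ i, eval v (pderiv i F) * δ (v i) := by
  classical
  induction F using MvPolynomial.induction_on with
  | C a => simp [dcoeff_C]
  | add F G hF hG =>
    rw [map_add, map_add, hF, hG, dcoeff_add, map_add]
    simp only [map_add, add_mul, Finset.sum_add_distrib]
    ring
  | mul_X F j hF =>
    rw [map_mul, eval_X, Derivation.leibniz, hF, dcoeff_mul_X, map_mul, eval_X]
    simp only [pderiv_mul, map_add, map_mul, eval_X, add_mul, Finset.sum_add_distrib]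
    have h1 : ∑ i, eval v F * eval v (pderiv i (X j)) * δ (v i) = eval v F * δ (v j) := by
      rw [Finset.sum_eq_single j]
      · rw [pderiv_X_self, map_one, mul_one]
      · intro i _ hij
        rw [pderiv_X_of_ne (Ne.symm hij), map_zero, mul_zero, zero_mul]
      · intro h; exact absurd (Finset.mem_univ j) h
    rw [h1]
    simp only [smul_eq_mul]
    have h2 : ∑ i, eval v (pderiv i F) * v j * δ (v i) =
        v j * ∑ i, eval v (pderiv i F) * δ (v i) := by
      rw [Finset.mul_sum]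
      exact Finset.sum_congr rfl fun i _ => by ring
    rw [h2]
    ring

/-- points killed by the derivation: the order of vanishing is kept -/
theorem ordGE_dcoeff_of_fixed (δ : Derivation ℚ ℂ ℂ) {k : ℕ} {F : MvPolynomial (Fin 3) ℂ}
    {v : Fin 3 → ℂ} (hv : ∀ i, δ (v i) = 0) (h : OrdGE k F v) : OrdGE k (dcoeff δ F) v := by
  induction k generalizing F with
  | zero => trivial
  | succ k ih =>
    refine ⟨?_, fun i => ?_⟩
    · have h1 := deriv_eval δ F v
      rw [h.1, map_zero] at h1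
      simpa [hv] using h1.symm
    · rw [pderiv_dcoeff]
      exact ih (h.2 i)

/-- other points: the order drops by at most one -/
theorem ordGE_dcoeff (δ : Derivation ℚ ℂ ℂ) {k : ℕ} {F : MvPolynomial (Fin 3) ℂ}
    {v : Fin 3 → ℂ} (h : OrdGE (k + 1) F v) : OrdGE k (dcoeff δ F) v := by
  induction k generalizing F with
  | zero => trivial
  | succ k ih =>
    refine ⟨?_, fun i => ?_⟩
    · have h1 := deriv_eval δ F v
      rw [h.1, map_zero] at h1
      have h2 : ∑ i, eval v (pderiv i F) * δ (v i) = 0 :=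
        Finset.sum_eq_zero fun i _ => by rw [(h.2 i).1, zero_mul]
      rw [h2, add_zero] at h1
      exact h1.symm
    · rw [pderiv_dcoeff]
      exact ih (h.2 i)

theorem ordGE_pred_dcoeff (δ : Derivation ℚ ℂ ℂ) {k : ℕ} {F : MvPolynomial (Fin 3) ℂ}
    {v : Fin 3 → ℂ} (h : OrdGE k F v) : OrdGE (k - 1) (dcoeff δ F) v := by
  cases k with
  | zero => trivial
  | succ k => exact ordGE_dcoeff δ h

/-- a form divisible by ... : proportionality constant -/
theorem exists_const_of_dvd {F G : MvPolynomial (Fin 3) ℂ} {N : ℕ} (hF : F.IsHomogeneous N)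
    (hG : G.IsHomogeneous N) (hF0 : F ≠ 0) (h : F ∣ G) : ∃ c : ℂ, G = C c * F := by
  obtain ⟨w, rfl⟩ := h
  by_cases hw : w = 0
  · exact ⟨0, by simp [hw]⟩
  obtain ⟨k, hk⟩ := isHomogeneous_of_mul (G := w) (H := F) (N := N)
    (by rw [mul_comm]; exact hG) (mul_ne_zero hw hF0)
  have hk0 : k = 0 := by
    have h4 := (hF.mul hk).inj_right hG (mul_ne_zero hF0 hw)
    omega
  subst hk0
  have h3 : w ∈ homogeneousSubmodule (Fin 3) ℂ 0 := hk
  rw [homogeneousSubmodule_zero] at h3
  obtain ⟨a, ha⟩ := Submodule.mem_one.1 h3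
  refine ⟨a, ?_⟩
  rw [← ha, algebraMap_eq, mul_comm]

/-- if the form is an eigenvector of both derivations then it vanishes identically -/
theorem ordGE_of_eigen (δx δy : Derivation ℚ ℂ ℂ) {v : Fin 3 → ℂ}
    (hx0 : δx (v 0) = 1) (hx1 : δx (v 1) = 0) (hx2 : δx (v 2) = 0)
    (hy0 : δy (v 0) = 0) (hy1 : δy (v 1) = 1) (hy2 : δy (v 2) = 0) (hv2 : v 2 ≠ 0)
    (a b : ℂ) (n : ℕ) {N : ℕ} {F : MvPolynomial (Fin 3) ℂ} (hF : F.IsHomogeneous N)
    (h1 : dcoeff δx F = C a * F) (h2 : dcoeff δy F = C b * F) (h0 : eval v F = 0) :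
    OrdGE n F v := by
  induction n generalizing N F with
  | zero => trivial
  | succ n ih =>
    have e0 : eval v (pderiv 0 F) = 0 := by
      have h3 := deriv_eval δx F v
      rw [h0, map_zero, h1, map_mul, h0, mul_zero, Fin.sum_univ_three, hx0, hx1, hx2] at h3
      simpa using h3.symm
    have e1 : eval v (pderiv 1 F) = 0 := by
      have h3 := deriv_eval δy F v
      rw [h0, map_zero, h2, map_mul, h0, mul_zero, Fin.sum_univ_three, hy0, hy1, hy2] at h3
      simpa using h3.symm
    have e2 : eval v (pderiv 2 F) = 0 := by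
      have hE := congrArg (eval v) hF.sum_X_mul_pderiv
      rw [map_sum, Fin.sum_univ_three, map_mul, map_mul, map_mul, e0, e1, nsmul_eq_mul, map_mul,
        h0, mul_zero, mul_zero, mul_zero, zero_add, zero_add, eval_X] at hE
      exact (mul_eq_zero.1 hE).resolve_left hv2
    refine ⟨h0, fun i => ?_⟩
    have hc : ∀ (δ : Derivation ℚ ℂ ℂ) (c : ℂ), dcoeff δ F = C c * F →
        dcoeff δ (pderiv i F) = C c * pderiv i F := by
      intro δ c h
      rw [← pderiv_dcoeff, h, pderiv_C_mul]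
    apply ih hF.pderiv (hc _ _ h1) (hc _ _ h2)
    fin_cases i
    · exact e0
    · exact e1
    · exact e2

theorem exists_not_dvd (δx δy : Derivation ℚ ℂ ℂ) {v : Fin 3 → ℂ}
    (hx0 : δx (v 0) = 1) (hx1 : δx (v 1) = 0) (hx2 : δx (v 2) = 0)
    (hy0 : δy (v 0) = 0) (hy1 : δy (v 1) = 1) (hy2 : δy (v 2) = 0) (hv2 : v 2 ≠ 0)
    {N : ℕ} {F : MvPolynomial (Fin 3) ℂ} (hF : F.IsHomogeneous N) (hF0 : F ≠ 0)
    (h0 : eval v F = 0) : ¬ F ∣ dcoeff δx F ∨ ¬ F ∣ dcoeff δy F := by
  by_contra hcon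
  push Not at hcon
  obtain ⟨a, ha⟩ := exists_const_of_dvd hF (isHomogeneous_dcoeff δx hF) hF0 hcon.1
  obtain ⟨b, hb⟩ := exists_const_of_dvd hF (isHomogeneous_dcoeff δy hF) hF0 hcon.2
  exact hF0 (eq_zero_of_ordGE hF
    (ordGE_of_eigen δx δy hx0 hx1 hx2 hy0 hy1 hy2 hv2 a b (N + 1) hF ha hb h0))

end Vale.Agent.NagataCurves
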