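import Mathlib
import Vale.Agent.NagataCurves.Defs
import Vale.Agent.NagataCurves.Deriv

/-! Additivity of multiplicities. -/

namespace Vale.Agent.NagataCurves

open MvPolynomial

/-- translation by `v` -/
noncomputable def tr (v : Fin 3 → ℂ) : MvPolynomial (Fin 3) ℂ →ₐ[ℂ] MvPolynomial (Fin 3) ℂ :=
  aeval fun i => X i + C (v i)

theorem coeff_zero_tr (v : Fin 3 → ℂ) (G : MvPolynomial (Fin 3) ℂ) :
    coeff 0 (tr v G) = eval v G := by
  have h : (constantCoeff.comp (tr v).toRingHom : MvPolynomial (Fin 3) ℂ →+* ℂ) = eval v := by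
    apply MvPolynomial.ringHom_ext
    · intro a
      simp [tr]
    · intro i
      simp [tr]
  have := congrArg (fun f => f G) h
  exact this

theorem pderiv_tr (v : Fin 3 → ℂ) (G : MvPolynomial (Fin 3) ℂ) (i : Fin 3) :
    pderiv i (tr v G) = tr v (pderiv i G) := by
  classical
  induction G using MvPolynomial.induction_on with
  | C a => simp [tr]
  | add F G hF hG => simp only [map_add, hF, hG]
  | mul_X F j hF =>
    rw [map_mul, pderiv_mul, pderiv_mul, hF, map_add, map_mul, map_mul]
    have h1 : tr v (X j) = X j + C (v j) := by simp [tr]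
    rw [h1, map_add, pderiv_C, add_zero]
    by_cases hij : i = j
    · subst hij; simp
    · rw [pderiv_X_of_ne (Ne.symm hij)]; simp

theorem pderiv_homogeneousComponent (i : Fin 3) (j : ℕ) (P : MvPolynomial (Fin 3) ℂ) :
    pderiv i (homogeneousComponent (j + 1) P) = homogeneousComponent j (pderiv i P) := by
  ext d
  rw [coeff_pderiv, coeff_homogeneousComponent, coeff_homogeneousComponent, coeff_pderiv]
  have h : (d + Finsupp.single i 1).degree = d.degree + 1 := by simp
  rw [h]
  by_cases hd : d.degree = j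
  · simp [hd]
  · have : ¬ d.degree + 1 = j + 1 := by omega
    simp [hd]

theorem ordGE_iff_comp (k : ℕ) (G : MvPolynomial (Fin 3) ℂ) (v : Fin 3 → ℂ) :
    OrdGE k G v ↔ ∀ j < k, homogeneousComponent j (tr v G) = 0 := by
  induction k generalizing G with
  | zero => simp [OrdGE]
  | succ k ih =>
    constructor
    · rintro ⟨h0, h1⟩ j hj
      cases j with
      | zero => rw [homogeneousComponent_zero, coeff_zero_tr, h0, map_zero]
      | succ j =>
        have h2 : ∀ i, pderiv i (homogeneousComponent (j + 1) (tr v G)) = 0 := by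
          intro i
          rw [pderiv_homogeneousComponent, pderiv_tr]
          exact (ih _).1 (h1 i) j (by omega)
        have hE := (homogeneousComponent_isHomogeneous (j + 1) (tr v G)).sum_X_mul_pderiv
        simp only [h2, mul_zero, Finset.sum_const_zero] at hE
        rw [nsmul_eq_mul] at hE
        have hne : ((j + 1 : ℕ) : MvPolynomial (Fin 3) ℂ) ≠ 0 := by
          rw [Nat.cast_ne_zero]; omega
        exact (mul_eq_zero.1 hE.symm).resolve_left hne
    · intro h
      refine ⟨?_, fun i => (ih _).2 fun j hj => ?_⟩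
      · have h1 := h 0 (by omega)
        rw [homogeneousComponent_zero, coeff_zero_tr] at h1
        exact C_eq_zero.1 h1
      · rw [← pderiv_tr, ← pderiv_homogeneousComponent, h (j + 1) (by omega), map_zero]

theorem tr_ne_zero (v : Fin 3 → ℂ) {G : MvPolynomial (Fin 3) ℂ} (hG : G ≠ 0) : tr v G ≠ 0 := by
  intro h
  apply hG
  have h1 : (tr (-v)).comp (tr v) = AlgHom.id ℂ _ := by
    apply MvPolynomial.algHom_ext
    intro i
    simp [tr]
  have h2 := congrArg (fun f => f G) h1
  simp only [AlgHom.comp_apply, AlgHom.id_apply, h, map_zero] at h2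
  exact h2.symm

/-- the order of vanishing as a trailing degree -/
noncomputable def ordv (G : MvPolynomial (Fin 3) ℂ) (v : Fin 3 → ℂ) : ℕ :=
  (scaleT (tr v G)).natTrailingDegree

theorem ordGE_iff_le_ordv {k : ℕ} {G : MvPolynomial (Fin 3) ℂ} (hG : G ≠ 0) (v : Fin 3 → ℂ) :
    OrdGE k G v ↔ k ≤ ordv G v := by
  rw [ordGE_iff_comp]
  have h0 := scaleT_ne_zero (tr_ne_zero v hG)
  constructor
  · intro h
    by_contra hlt
    push Not at hlt
    have h1 := h _ hlt
    rw [← scaleT_coeff] at h1
    exact h0 (Polynomial.trailingCoeff_eq_zero.1 h1)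
  · intro h j hj
    rw [← scaleT_coeff]
    exact Polynomial.coeff_eq_zero_of_lt_natTrailingDegree (lt_of_lt_of_le hj h)

theorem ordv_mul {G H : MvPolynomial (Fin 3) ℂ} (hG : G ≠ 0) (hH : H ≠ 0) (v : Fin 3 → ℂ) :
    ordv (G * H) v = ordv G v + ordv H v := by
  unfold ordv
  rw [map_mul, scaleT_mul, Polynomial.natTrailingDegree_mul
    (scaleT_ne_zero (tr_ne_zero v hG)) (scaleT_ne_zero (tr_ne_zero v hH))]

theorem mult_eq_ordv {G : MvPolynomial (Fin 3) ℂ} (hG : G ≠ 0) (p : P2) :
    mult G p = ordv G p.rep := by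
  have h1 : ∀ k, OrdGE k G p.rep ↔ k ≤ ordv G p.rep := fun k => ordGE_iff_le_ordv hG _
  have hne : {k | ∃ l : List (Fin 3), l.length = k ∧
      eval p.rep (l.foldr (fun i G => pderiv i G) G) ≠ 0}.Nonempty := by
    by_contra hcon
    rw [Set.not_nonempty_iff_eq_empty, Set.eq_empty_iff_forall_notMem] at hcon
    have h2 := (h1 (ordv G p.rep + 1)).1 ((ordGE_iff _ _ _).2 fun l _ => by
      by_contra h3
      exact hcon l.length ⟨l, rfl, h3⟩)
    omega
  apply le_antisymm
  · rw [← h1, ordGE_iff]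
    intro l hl
    by_contra h3
    exact Nat.notMem_of_lt_sInf hl ⟨l, rfl, h3⟩
  · obtain ⟨l, hl, h3⟩ := Nat.sInf_mem hne
    by_contra hlt
    push Not at hlt
    have h4 := (ordGE_iff _ _ _).1 ((h1 _).2 le_rfl) l (by
      rw [hl]; exact hlt)
    exact h3 h4

theorem mult_mul {G H : MvPolynomial (Fin 3) ℂ} (hG : G ≠ 0) (hH : H ≠ 0) (p : P2) :
    mult (G * H) p = mult G p + mult H p := by
  rw [mult_eq_ordv hG, mult_eq_ordv hH, mult_eq_ordv (mul_ne_zero hG hH), ordv_mul hG hH]

theorem ordGE_mult {G : MvPolynomial (Fin 3) ℂ} (hG : G ≠ 0) (p : P2) :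
    OrdGE (mult G p) G p.rep := by
  rw [mult_eq_ordv hG, ordGE_iff_le_ordv hG]

theorem le_mult_of_ordGE {k : ℕ} {G : MvPolynomial (Fin 3) ℂ} (hG : G ≠ 0) (p : P2)
    (h : OrdGE k G p.rep) : k ≤ mult G p := by
  rw [mult_eq_ordv hG, ← ordGE_iff_le_ordv hG]
  exact h

end Vale.Agent.NagataCurves
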