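import Mathlib
import Vale.Agent.NagataCurves.Mult
import Vale.Agent.NagataCurves.Generic

/-! The refined inequality for irreducible curves through generic points. -/

namespace Vale.Agent.NagataCurves

open MvPolynomial

/-- normalized representative -/
noncomputable def nrep (q : P2) : Fin 3 → ℂ := (q.rep 2)⁻¹ • q.rep

theorem ordGE_nrep_iff {N k : ℕ} {F : MvPolynomial (Fin 3) ℂ} (hF : F.IsHomogeneous N) {q : P2}
    (hq : q.rep 2 ≠ 0) : OrdGE k F (nrep q) ↔ OrdGE k F q.rep :=
  ordGE_smul_iff hF _ (inv_ne_zero hq)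

theorem nrep_two {q : P2} (hq : q.rep 2 ≠ 0) : nrep q 2 = 1 := by
  simp [nrep, hq]

theorem nrep_aff {r : ℕ} (p : Fin r → P2) (i : Fin r) (j : Fin 2) :
    nrep (p i) j.castSucc = aff p (i, j) := by
  simp [nrep, aff, div_eq_inv_mul]

theorem span_ne {q q' : P2} (h : q ≠ q') : q.rep ∉ Submodule.span ℂ {q'.rep} := by
  intro hmem
  obtain ⟨a, ha⟩ := Submodule.mem_span_singleton.1 hmem
  apply h
  have ha0 : a ≠ 0 := by
    rintro rfl
    rw [zero_smul] at ha
    exact q.rep_nonzero ha.symm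
  rw [← q.mk_rep, ← q'.mk_rep]
  rw [Projectivization.mk_eq_mk_iff]
  exact ⟨Units.mk0 a ha0, by rw [Units.smul_def, Units.val_mk0, ha]⟩

theorem mult_pos_iff {F : MvPolynomial (Fin 3) ℂ} (hF0 : F ≠ 0)
    (q : P2) : 1 ≤ mult F q ↔ eval q.rep F = 0 := by
  constructor
  · intro h
    have := (ordGE_mult hF0 q).mono h
    exact this.1
  · intro h
    exact le_mult_of_ordGE hF0 q ⟨h, fun _ => trivial⟩

theorem exists_derivations {r : ℕ} {p : Fin r → P2} (hz : ∀ i, (p i).rep 2 ≠ 0)
    (ha : AlgebraicIndependent ℚ (aff p)) (j : Fin r) (k : Fin 2) :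
    ∃ δ : Derivation ℚ ℂ ℂ, (∀ i, i ≠ j → ∀ a, δ (nrep (p i) a) = 0) ∧
      (∀ a : Fin 3, δ (nrep (p j) a) = if a = k.castSucc then 1 else 0) := by
  classical
  obtain ⟨δ, hδ⟩ := exists_derivation (aff p) ha (fun a => if a = (j, k) then 1 else 0)
  have hlast : ∀ i, δ (nrep (p i) 2) = 0 := by
    intro i
    rw [nrep_two (hz i), Derivation.map_one_eq_zero]
  refine ⟨δ, ?_, ?_⟩
  · intro i hij a
    fin_cases a
    · have := hδ (i, 0)
      rw [← nrep_aff, if_neg (by simp [hij])] at this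
      exact this
    · have := hδ (i, 1)
      rw [← nrep_aff, if_neg (by simp [hij])] at this
      exact this
    · exact hlast i
  · intro a
    fin_cases a
    · have := hδ (j, 0)
      rw [← nrep_aff] at this
      fin_cases k <;> simpa using this
    · have := hδ (j, 1)
      rw [← nrep_aff] at this
      fin_cases k <;> simpa using this
    · have := hlast j
      fin_cases k <;> simpa using this

/-- Refined inequality: `m_j (m_j - 1) + ∑_{i ≠ j} m_i^2 + ∑_q n_q (n_q - 1) ≤ d^2`. -/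
theorem refined {r : ℕ} {p : Fin r → P2} (hp : Function.Injective p)
    (hz : ∀ i, (p i).rep 2 ≠ 0) (ha : AlgebraicIndependent ℚ (aff p)) {d : ℕ}
    {F : MvPolynomial (Fin 3) ℂ} (hF : F.IsHomogeneous d) (hirr : Irreducible F)
    (j : Fin r) (hj : 1 ≤ mult F (p j)) (Q : Finset P2) (hQ : ∀ q ∈ Q, ∀ i, q ≠ p i) :
    ∑ i, mult F (p i) * (if i = j then mult F (p j) - 1 else mult F (p i)) +
      ∑ q ∈ Q, mult F q * (mult F q - 1) ≤ d * d := by
  classical
  have hF0 : F ≠ 0 := hirr.ne_zero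
  obtain ⟨δx, hx1, hx2⟩ := exists_derivations hz ha j 0
  obtain ⟨δy, hy1, hy2⟩ := exists_derivations hz ha j 1
  have h0 : eval (nrep (p j)) F = 0 := by
    have h1 : OrdGE 1 F (nrep (p j)) :=
      (ordGE_nrep_iff hF (hz j)).2 ((ordGE_mult hF0 (p j)).mono hj)
    exact h1.1
  have hδ : ∃ δ : Derivation ℚ ℂ ℂ, (∀ i, i ≠ j → ∀ a, δ (nrep (p i) a) = 0) ∧
      ¬ F ∣ dcoeff δ F := by
    have h2 : nrep (p j) 2 ≠ 0 := by rw [nrep_two (hz j)]; exact one_ne_zero
    rcases exists_not_dvd δx δy (v := nrep (p j)) (by simpa using hx2 0) (by simpa using hx2 1)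
      (by simpa using hx2 2) (by simpa using hy2 0) (by simpa using hy2 1) (by simpa using hy2 2)
      h2 hF hF0 h0 with h | h
    · exact ⟨δx, hx1, h⟩
    · exact ⟨δy, hy1, h⟩
  obtain ⟨δ, hfix, hnd⟩ := hδ
  let v : Fin r ⊕ Q → Fin 3 → ℂ := Sum.elim (fun i => (p i).rep) (fun q => q.1.rep)
  let m : Fin r ⊕ Q → ℕ := Sum.elim (fun i => mult F (p i)) (fun q => mult F q.1)
  let n : Fin r ⊕ Q → ℕ := Sum.elim (fun i => if i = j then mult F (p j) - 1 else mult F (p i))
    (fun q => mult F q.1 - 1)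
  have hG : (dcoeff δ F).IsHomogeneous d := isHomogeneous_dcoeff δ hF
  have hbez := bezout (ι := Fin r ⊕ Q) v ?_ ?_ hF hG hirr hnd m n ?_ ?_
  · rw [Fintype.sum_sum_type] at hbez
    have h3 : ∑ q : Q, mult F q.1 * (mult F q.1 - 1) = ∑ q ∈ Q, mult F q * (mult F q - 1) :=
      Finset.sum_coe_sort Q (fun q => mult F q * (mult F q - 1))
    rw [← h3]
    exact hbez
  · rintro (i | q)
    · exact (p i).rep_nonzero
    · exact q.1.rep_nonzero
  · rintro (i | q) (i' | q') hne
    · exact span_ne fun h => hne (by rw [hp h])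
    · exact span_ne (hQ q'.1 q'.2 i).symm
    · exact span_ne (hQ q.1 q.2 i')
    · exact span_ne fun h => hne (by rw [Subtype.ext h])
  · rintro (i | q)
    · exact ordGE_mult hF0 (p i)
    · exact ordGE_mult hF0 q.1
  · rintro (i | q)
    · change OrdGE (if i = j then mult F (p j) - 1 else mult F (p i)) (dcoeff δ F) (p i).rep
      split_ifs with hij
      · subst hij
        exact ordGE_pred_dcoeff δ (ordGE_mult hF0 (p i))
      · rw [← ordGE_nrep_iff hG (hz i)]
        exact ordGE_dcoeff_of_fixed δ (hfix i hij)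
          ((ordGE_nrep_iff hF (hz i)).2 (ordGE_mult hF0 (p i)))
    · exact ordGE_pred_dcoeff δ (ordGE_mult hF0 q.1)

/-- general points impose independent conditions (simple points only) -/
theorem card_simple_le {r : ℕ} {p : Fin r → P2}
    (hz : ∀ i, (p i).rep 2 ≠ 0) (ha : AlgebraicIndependent ℚ (aff p)) {d : ℕ}
    {F : MvPolynomial (Fin 3) ℂ} (hF : F.IsHomogeneous d) (hF0 : F ≠ 0)
    (T : Finset (Fin r)) (hT : ∀ i ∈ T, mult F (p i) = 1) : T.card + 1 ≤ (d + 2).choose 2 := by
  classical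
  have key : ∀ j : T, ∃ G : MvPolynomial (Fin 3) ℂ, G.IsHomogeneous d ∧
      eval (nrep (p j)) G ≠ 0 ∧ ∀ i : T, i ≠ j → eval (nrep (p i)) G = 0 := by
    intro j
    obtain ⟨δx, hx1, hx2⟩ := exists_derivations hz ha j.1 0
    obtain ⟨δy, hy1, hy2⟩ := exists_derivations hz ha j.1 1
    have hfix : ∀ δ : Derivation ℚ ℂ ℂ, (∀ i, i ≠ j.1 → ∀ a, δ (nrep (p i) a) = 0) →
        ∀ i : T, i ≠ j → eval (nrep (p i)) (dcoeff δ F) = 0 := by
      intro δ hδ i hij
      have h1 : OrdGE 1 F (nrep (p i.1)) :=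
        (ordGE_nrep_iff hF (hz i.1)).2 ((ordGE_mult hF0 (p i.1)).mono (hT i.1 i.2).ge)
      exact (ordGE_dcoeff_of_fixed δ (hδ i.1 fun h => hij (Subtype.ext h)) h1).1
    by_contra hcon
    push Not at hcon
    have ex : eval (nrep (p j)) (dcoeff δx F) = 0 := by
      by_contra h
      obtain ⟨i, hij, hi⟩ := hcon _ (isHomogeneous_dcoeff δx hF) h
      exact hi (hfix δx hx1 i hij)
    have ey : eval (nrep (p j)) (dcoeff δy F) = 0 := by
      by_contra h
      obtain ⟨i, hij, hi⟩ := hcon _ (isHomogeneous_dcoeff δy hF) h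
      exact hi (hfix δy hy1 i hij)
    have h1 : OrdGE 1 F (nrep (p j.1)) :=
      (ordGE_nrep_iff hF (hz j.1)).2 ((ordGE_mult hF0 (p j.1)).mono (hT j.1 j.2).ge)
    have h0 := h1.1
    have e0 : eval (nrep (p j.1)) (pderiv 0 F) = 0 := by
      have h3 := deriv_eval δx F (nrep (p j.1))
      rw [h0, map_zero, ex, Fin.sum_univ_three, hx2, hx2, hx2] at h3
      simpa using h3.symm
    have e1 : eval (nrep (p j.1)) (pderiv 1 F) = 0 := by
      have h3 := deriv_eval δy F (nrep (p j.1))
      rw [h0, map_zero, ey, Fin.sum_univ_three, hy2, hy2, hy2] at h3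
      simpa using h3.symm
    have e2 : eval (nrep (p j.1)) (pderiv 2 F) = 0 := by
      have hE := congrArg (eval (nrep (p j.1))) hF.sum_X_mul_pderiv
      rw [map_sum, Fin.sum_univ_three, map_mul, map_mul, map_mul, e0, e1, nsmul_eq_mul, map_mul,
        h0, mul_zero, mul_zero, mul_zero, zero_add, zero_add, eval_X, nrep_two (hz j.1),
        one_mul] at hE
      exact hE
    have h2 : OrdGE 2 F (nrep (p j.1)) := by
      refine ⟨h0, fun i => ⟨?_, fun _ => trivial⟩⟩
      fin_cases i
      · exact e0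
      · exact e1
      · exact e2
    have h3 := le_mult_of_ordGE hF0 (p j.1) ((ordGE_nrep_iff hF (hz j.1)).1 h2)
    rw [hT j.1 j.2] at h3
    omega
  choose G hG1 hG2 hG3 using key
  let f : Option T → homogeneousSubmodule (Fin 3) ℂ d := fun o =>
    match o with
    | none => ⟨F, hF⟩
    | some j => ⟨G j, hG1 j⟩
  have hli : LinearIndependent ℂ f := by
    rw [Fintype.linearIndependent_iff]
    intro c hc
    rw [Fintype.sum_option] at hc
    have hc' : c none • F + ∑ j : T, c (some j) • G j = 0 := by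
      have := congrArg Subtype.val hc
      simpa [f] using this
    have hs : ∀ j : T, c (some j) = 0 := by
      intro j
      have h1 := congrArg (eval (nrep (p j.1))) hc'
      rw [map_add, map_sum, smul_eval] at h1
      have h2 : eval (nrep (p j.1)) F = 0 :=
        ((ordGE_nrep_iff hF (hz j.1)).2 ((ordGE_mult hF0 (p j.1)).mono (hT j.1 j.2).ge) :
          OrdGE 1 F (nrep (p j.1))).1
      rw [h2, mul_zero, zero_add, map_zero, Finset.sum_eq_single j] at h1
      · rw [smul_eval] at h1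
        exact (mul_eq_zero.1 h1).resolve_right (hG2 j)
      · intro i _ hij
        rw [smul_eval, hG3 i j (Ne.symm hij), mul_zero]
      · intro h; exact absurd (Finset.mem_univ j) h
    intro o
    cases o with
    | some j => exact hs j
    | none =>
      simp only [hs, zero_smul, Finset.sum_const_zero, add_zero] at hc'
      exact (smul_eq_zero.1 hc').resolve_right hF0
  have h1 := hli.fintype_card_le_finrank
  rw [finrank_forms, Fintype.card_option, Fintype.card_coe] at h1
  exact h1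

end Vale.Agent.NagataCurves
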