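import Mathlib
import Vale.Agent.NagataCurves.Core

/-! Numerical consequences of the refined inequality; reducible curves. -/

namespace Vale.Agent.NagataCurves

open MvPolynomial

theorem arith_B {s w d t : ℕ} (hr : 10 ≤ s + w) (hs : 1 ≤ s) (hw : 1 ≤ w) (hd : 1 ≤ d)
    (ht : 1 ≤ t) (h1 : w * d ^ 2 ≤ s * t) (h2 : s * t ^ 2 ≤ d ^ 2 + t) : t = 1 ∧ w = 1 := by
  have h3 : w * s * t ≤ s + w := by
    have h3 : w * (s * t ^ 2) ≤ w * (d ^ 2 + t) := Nat.mul_le_mul_left w h2
    have h4 : (w * s * t) * t ≤ (s + w) * t := by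
      have e1 : (w * s * t) * t = w * (s * t ^ 2) := by ring
      have e2 : w * (d ^ 2 + t) = w * d ^ 2 + w * t := by ring
      have e3 : (s + w) * t = s * t + w * t := by ring
      omega
    exact Nat.le_of_mul_le_mul_right h4 (by omega)
  have hsw : s + w ≤ w * s + 1 := by
    obtain ⟨a, rfl⟩ : ∃ a, s = a + 1 := ⟨s - 1, by omega⟩
    obtain ⟨b, rfl⟩ : ∃ b, w = b + 1 := ⟨w - 1, by omega⟩
    have : (b + 1) * (a + 1) = b * a + b + a + 1 := by ring
    have : 0 ≤ b * a := Nat.zero_le _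
    omega
  have ht1 : t = 1 := by
    by_contra hne
    have ht2 : 2 ≤ t := by omega
    have h4 : w * s * 2 ≤ s + w := (Nat.mul_le_mul_left _ ht2).trans h3
    omega
  refine ⟨ht1, ?_⟩
  subst ht1
  by_contra hw1
  have hw2 : 2 ≤ w := by omega
  have hs1 : s = 1 := by
    by_contra hs1
    obtain ⟨a, rfl⟩ : ∃ a, s = a + 2 := ⟨s - 2, by omega⟩
    obtain ⟨b, rfl⟩ : ∃ b, w = b + 2 := ⟨w - 2, by omega⟩
    have e : (b + 2) * (a + 2) * 1 = b * a + 2 * b + 2 * a + 4 := by ring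
    rw [e] at h3
    have : 0 ≤ b * a := Nat.zero_le _
    omega
  subst hs1
  have : 1 ≤ d ^ 2 := Nat.one_le_pow _ _ hd
  have h5 : w * 1 ≤ w * d ^ 2 := Nat.mul_le_mul_left w this
  omega

theorem arith_C {d s : ℕ} (hs : 9 ≤ s) (h3 : s + 1 ≤ (d + 2).choose 2)
    (hcon : (s + 1) * d ^ 2 ≤ s ^ 2) (hup : s ≤ d ^ 2 + 1) : False := by
  have hch : 2 * (d + 2).choose 2 = (d + 2) * (d + 1) := by
    rw [Nat.choose_two_right]
    have : 2 ∣ (d + 2) * (d + 2 - 1) := by
      have := Nat.even_mul_succ_self (d + 1)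
      rw [even_iff_two_dvd] at this
      rwa [mul_comm] at this
    rw [Nat.mul_div_cancel' this]
    rfl
  have h4 : d ^ 2 < s := by
    by_contra h
    push Not at h
    have : (s + 1) * s ≤ (s + 1) * d ^ 2 := Nat.mul_le_mul_left _ h
    nlinarith
  have h5 : s = d ^ 2 + 1 := by omega
  have h6 : d ≤ 2 := by
    by_contra hd3
    push Not at hd3
    nlinarith
  have h7 : d ^ 2 ≤ 4 := by nlinarith
  omega

theorem numeric_B {r : ℕ} (hr : 10 ≤ r) {d : ℕ} (hd : 1 ≤ d) (μ : Fin r → ℕ) (i0 : Fin r)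
    (hi0 : μ i0 = 0) (H1 : ∀ j, 1 ≤ μ j → ∑ i, μ i ^ 2 ≤ d ^ 2 + μ j)
    (H2 : ∀ T : Finset (Fin r), (∀ i ∈ T, μ i = 1) → T.card + 1 ≤ (d + 2).choose 2) :
    (∑ i, μ i) ^ 2 < r * d ^ 2 := by
  classical
  let T : Finset (Fin r) := Finset.univ.filter fun i => μ i ≠ 0
  have hTS1 : ∑ i ∈ T, μ i = ∑ i, μ i := by
    apply Finset.sum_filter_of_ne
    intro i _ h; exact h
  have hTS2 : ∑ i ∈ T, μ i ^ 2 = ∑ i, μ i ^ 2 := by
    apply Finset.sum_filter_of_ne
    intro i _ h h0
    rw [h0] at h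
    exact h (by norm_num)
  have hcard : T.card + 1 ≤ r := by
    have h1 : T ⊆ Finset.univ.erase i0 := by
      intro i hi
      rw [Finset.mem_filter] at hi
      rw [Finset.mem_erase]
      exact ⟨fun h => hi.2 (h ▸ hi0), Finset.mem_univ _⟩
    have h2 := Finset.card_le_card h1
    rw [Finset.card_erase_of_mem (Finset.mem_univ _), Finset.card_univ, Fintype.card_fin] at h2
    omega
  have hd2 : 1 ≤ d ^ 2 := Nat.one_le_pow _ _ hd
  rcases T.eq_empty_or_nonempty with hT | hT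
  · rw [← hTS1, hT, Finset.sum_empty]
    have : 0 < r * d ^ 2 := Nat.mul_pos (by omega) (by omega)
    simpa using this
  obtain ⟨j, hjT, hjmin⟩ := T.exists_min_image μ hT
  have hj1 : 1 ≤ μ j := Nat.one_le_iff_ne_zero.2 (Finset.mem_filter.1 hjT).2
  obtain ⟨s, hs⟩ : ∃ s, s = T.card := ⟨_, rfl⟩
  obtain ⟨t, ht⟩ : ∃ t, t = μ j := ⟨_, rfl⟩
  obtain ⟨S1, hS1⟩ : ∃ S1, S1 = ∑ i, μ i := ⟨_, rfl⟩
  obtain ⟨S2, hS2⟩ : ∃ S2, S2 = ∑ i, μ i ^ 2 := ⟨_, rfl⟩
  have hs1 : 1 ≤ s := by rw [hs]; exact hT.card_pos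
  have hCS : S1 ^ 2 ≤ s * S2 := by
    rw [hS1, hS2, ← hTS1, ← hTS2, hs]
    exact sq_sum_le_card_mul_sum_sq
  have hup : S2 ≤ d ^ 2 + t := by rw [hS2, ht]; exact H1 j hj1
  have hlow : s * t ^ 2 ≤ S2 := by
    rw [hS2, ← hTS2, hs, ht, ← smul_eq_mul]
    apply Finset.card_nsmul_le_sum
    intro i hi
    exact Nat.pow_le_pow_left (hjmin i hi) 2
  rw [← ht] at hj1
  rw [← hS1]
  by_contra hcon
  push Not at hcon
  obtain ⟨w, hw⟩ : ∃ w, r = s + w := ⟨r - s, by omega⟩
  have hw1 : 1 ≤ w := by omega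
  have h1 : w * d ^ 2 ≤ s * t := by
    have h2 : (s + w) * d ^ 2 ≤ s * (d ^ 2 + t) := by
      rw [← hw]
      exact hcon.trans (hCS.trans (Nat.mul_le_mul_left s hup))
    have h3 : (s + w) * d ^ 2 = s * d ^ 2 + w * d ^ 2 := by ring
    have h4 : s * (d ^ 2 + t) = s * d ^ 2 + s * t := by ring
    omega
  obtain ⟨ht1, hw1'⟩ := arith_B (by omega) hs1 hw1 hd hj1 h1 (hlow.trans hup)
  rw [ht1] at h1 hup
  rw [hw1'] at h1 hw
  have hds : d ^ 2 ≤ s := by omega
  clear hlow hCS
  have hall : ∀ i ∈ T, μ i = 1 := by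
    intro i hi
    by_contra hne
    have hi2 : 2 ≤ μ i := by
      have := Nat.one_le_iff_ne_zero.2 (Finset.mem_filter.1 hi).2
      omega
    have h3 : s + 3 ≤ S2 := by
      rw [hS2, ← hTS2, ← Finset.add_sum_erase T (fun i => μ i ^ 2) hi]
      have h4 : (T.erase i).card • 1 ≤ ∑ k ∈ T.erase i, μ k ^ 2 := by
        apply Finset.card_nsmul_le_sum
        intro k hk
        have := Nat.one_le_iff_ne_zero.2 (Finset.mem_filter.1 (Finset.mem_of_mem_erase hk)).2
        exact Nat.one_le_pow _ _ this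
      rw [Finset.card_erase_of_mem hi, ← hs, smul_eq_mul, mul_one] at h4
      have h5 : 4 ≤ μ i ^ 2 := by
        calc 4 = 2 ^ 2 := by norm_num
          _ ≤ μ i ^ 2 := Nat.pow_le_pow_left hi2 2
      omega
    omega
  have hS1' : S1 = s := by
    rw [hS1, ← hTS1, Finset.sum_congr rfl hall, hs]
    simp
  have hS2' : S2 = s := by
    rw [hS2, ← hTS2, Finset.sum_congr rfl fun i hi => by rw [hall i hi]]
    rw [hs]
    simp
  have hH2 := H2 T hall
  rw [← hs] at hH2
  rw [hS1', hw] at hcon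
  exact arith_C (by omega) hH2 hcon (by omega)

/-- the refined inequality, in integer form -/
theorem refined_int {r : ℕ} {p : Fin r → P2} (hp : Function.Injective p)
    (hz : ∀ i, (p i).rep 2 ≠ 0) (ha : AlgebraicIndependent ℚ (aff p)) {d : ℕ}
    {F : MvPolynomial (Fin 3) ℂ} (hF : F.IsHomogeneous d) (hirr : Irreducible F)
    (j : Fin r) (hj : 1 ≤ mult F (p j)) (Q : Finset P2) (hQ : ∀ q ∈ Q, ∀ i, q ≠ p i) :
    (∑ i, (mult F (p i) : ℤ) ^ 2) + ∑ q ∈ Q, (mult F q : ℤ) * (mult F q - 1) ≤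
      (d : ℤ) ^ 2 + mult F (p j) := by
  classical
  have h1 := refined hp hz ha hF hirr j hj Q hQ
  have h2 : ∑ i, mult F (p i) * (if i = j then mult F (p j) - 1 else mult F (p i)) +
      mult F (p j) = ∑ i, mult F (p i) ^ 2 := by
    rw [← Finset.add_sum_erase Finset.univ
        (fun i => mult F (p i) * (if i = j then mult F (p j) - 1 else mult F (p i)))
        (Finset.mem_univ j),
      ← Finset.add_sum_erase Finset.univ (fun i => mult F (p i) ^ 2) (Finset.mem_univ j)]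
    have h1 : ∑ i ∈ Finset.univ.erase j,
        mult F (p i) * (if i = j then mult F (p j) - 1 else mult F (p i)) =
        ∑ i ∈ Finset.univ.erase j, mult F (p i) ^ 2 := by
      refine Finset.sum_congr rfl fun i hi => ?_
      rw [if_neg (Finset.ne_of_mem_erase hi), sq]
    rw [h1, if_pos rfl]
    obtain ⟨m, hm⟩ : ∃ m, mult F (p j) = m + 1 := ⟨mult F (p j) - 1, by omega⟩
    rw [hm]
    simp only [Nat.add_sub_cancel]
    ring
  have h3 : (∑ q ∈ Q, (mult F q : ℤ) * (mult F q - 1)) =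
      ((∑ q ∈ Q, mult F q * (mult F q - 1) : ℕ) : ℤ) := by
    rw [Nat.cast_sum]
    refine Finset.sum_congr rfl fun q _ => ?_
    cases hq : mult F q with
    | zero => simp
    | succ n => push_cast; simp
  rw [h3]
  have h4 : (∑ i, mult F (p i) ^ 2) + ∑ q ∈ Q, mult F q * (mult F q - 1) ≤
      d ^ 2 + mult F (p j) := by
    rw [← h2, sq]; omega
  exact_mod_cast h4

/-- the inequality for one irreducible curve -/
theorem component {r : ℕ} (hr : 10 ≤ r) {p : Fin r → P2} (hp : Function.Injective p)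
    (hz : ∀ i, (p i).rep 2 ≠ 0) (ha : AlgebraicIndependent ℚ (aff p)) {d : ℕ} (hd : 1 ≤ d)
    {F : MvPolynomial (Fin 3) ℂ} (hF : F.IsHomogeneous d) (hirr : Irreducible F)
    (hgood : (∃ i, mult F (p i) = 0) ∨
      ∃ Q : Finset P2, (∀ q ∈ Q, ∀ i, q ≠ p i) ∧ ∃ j : Fin r,
        2 * (r : ℤ) * mult F (p j) <
          (∑ i, ∑ k, ((mult F (p i) : ℤ) - mult F (p k)) ^ 2) +
            2 * r * ∑ q ∈ Q, (mult F q : ℤ) * (mult F q - 1)) :
    (∑ i, mult F (p i)) ^ 2 < r * d ^ 2 := by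
  classical
  have hF0 : F ≠ 0 := hirr.ne_zero
  have hsplit : ∀ j, 1 ≤ mult F (p j) →
      ∑ i, mult F (p i) * (if i = j then mult F (p j) - 1 else mult F (p i)) + mult F (p j) =
        ∑ i, mult F (p i) ^ 2 := by
    intro j hj
    rw [← Finset.add_sum_erase Finset.univ
        (fun i => mult F (p i) * (if i = j then mult F (p j) - 1 else mult F (p i)))
        (Finset.mem_univ j),
      ← Finset.add_sum_erase Finset.univ (fun i => mult F (p i) ^ 2) (Finset.mem_univ j)]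
    have h1 : ∑ i ∈ Finset.univ.erase j,
        mult F (p i) * (if i = j then mult F (p j) - 1 else mult F (p i)) =
        ∑ i ∈ Finset.univ.erase j, mult F (p i) ^ 2 := by
      refine Finset.sum_congr rfl fun i hi => ?_
      rw [if_neg (Finset.ne_of_mem_erase hi), sq]
    rw [h1, if_pos rfl]
    obtain ⟨m, hm⟩ : ∃ m, mult F (p j) = m + 1 := ⟨mult F (p j) - 1, by omega⟩
    rw [hm]
    simp only [Nat.add_sub_cancel]
    ring
  by_cases hzero : ∃ i, mult F (p i) = 0
  · obtain ⟨i0, hi0⟩ := hzero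
    apply numeric_B hr hd (fun i => mult F (p i)) i0 hi0
    · intro j hj
      have h1 := refined hp hz ha hF hirr j hj ∅ (by simp)
      have h2 := hsplit j hj
      simp only [Finset.sum_empty, add_zero] at h1
      rw [← h2]
      nlinarith
    · intro T hT
      exact card_simple_le hz ha hF hF0 T hT
  · obtain ⟨Q, hQ, j, hj⟩ := hgood.resolve_left hzero
    have hj1 : 1 ≤ mult F (p j) := by
      by_contra h
      exact hzero ⟨j, by omega⟩
    have h1 := refined hp hz ha hF hirr j hj1 Q hQ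
    have h2 := hsplit j hj1
    have h3 : (∑ q ∈ Q, (mult F q : ℤ) * (mult F q - 1)) =
        ((∑ q ∈ Q, mult F q * (mult F q - 1) : ℕ) : ℤ) := by
      rw [Nat.cast_sum]
      refine Finset.sum_congr rfl fun q _ => ?_
      cases hq : mult F q with
      | zero => simp
      | succ n => push_cast; simp
    rw [h3] at hj
    set N := ∑ q ∈ Q, mult F q * (mult F q - 1) with hN
    have h4 : (∑ i, ∑ k, ((mult F (p i) : ℤ) - mult F (p k)) ^ 2) =
        2 * r * ((∑ i, mult F (p i) ^ 2 : ℕ) : ℤ) - 2 * ((∑ i, mult F (p i) : ℕ) : ℤ) ^ 2 := by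
      have e : ∀ i k, ((mult F (p i) : ℤ) - mult F (p k)) ^ 2 =
          (mult F (p i) : ℤ) ^ 2 + (mult F (p k) : ℤ) ^ 2 -
            2 * ((mult F (p i) : ℤ) * (mult F (p k) : ℤ)) := fun i k => by ring
      simp only [e, Finset.sum_add_distrib, Finset.sum_sub_distrib, Finset.sum_const,
        Finset.card_univ, Fintype.card_fin, ← Finset.mul_sum, nsmul_eq_mul, ← Finset.sum_mul]
      push_cast
      ring
    rw [h4] at hj
    have h5 : ((∑ i, mult F (p i) ^ 2 : ℕ) : ℤ) + N ≤ (d : ℤ) ^ 2 + mult F (p j) := by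
      rw [← h2]
      have : (∑ i, mult F (p i) * (if i = j then mult F (p j) - 1 else mult F (p i)) + mult F (p j))
          + N ≤ d ^ 2 + mult F (p j) := by
        rw [sq]; omega
      exact_mod_cast this
    have h6 : ((∑ i, mult F (p i) : ℕ) : ℤ) ^ 2 < r * (d : ℤ) ^ 2 := by
      have hr0 : (0 : ℤ) ≤ r := by positivity
      nlinarith [mul_le_mul_of_nonneg_left h5 hr0]
    exact_mod_cast h6

/-- passing from irreducible curves to arbitrary curves -/
theorem of_components {r : ℕ} (p : Fin r → P2)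
    (Good : MvPolynomial (Fin 3) ℂ → Prop)
    (hcomp : ∀ (G : MvPolynomial (Fin 3) ℂ) (e : ℕ), 1 ≤ e → G.IsHomogeneous e → Irreducible G →
      Good G → (∑ i, mult G (p i)) ^ 2 < r * e ^ 2)
    (F : MvPolynomial (Fin 3) ℂ) (hF0 : F ≠ 0) (d : ℕ) (hF : F.IsHomogeneous d) (hd : 1 ≤ d)
    (hgood : ∀ G, Irreducible G → G ∣ F → Good G) :
    ((∑ i, mult F (p i) : ℕ) : ℝ) < d * Real.sqrt r := by
  classical
  have hunit : ∀ G : MvPolynomial (Fin 3) ℂ, G.IsHomogeneous 0 → G ≠ 0 →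
      IsUnit G ∧ ∀ q, mult G q = 0 := by
    intro G hG hG0
    have h3 : G ∈ homogeneousSubmodule (Fin 3) ℂ 0 := hG
    rw [homogeneousSubmodule_zero] at h3
    obtain ⟨a, ha⟩ := Submodule.mem_one.1 h3
    rw [algebraMap_eq] at ha
    have ha0 : a ≠ 0 := by
      rintro rfl
      rw [map_zero] at ha
      exact hG0 ha.symm
    refine ⟨by rw [← ha]; exact (isUnit_iff_ne_zero.2 ha0).map C, fun q => ?_⟩
    have h4 : ¬ 1 ≤ mult G q := by
      rw [mult_pos_iff hG0 q, ← ha, eval_C]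
      exact ha0
    omega
  have key : ∀ F : MvPolynomial (Fin 3) ℂ, F ≠ 0 → ∀ d, F.IsHomogeneous d →
      (∀ G, Irreducible G → G ∣ F → Good G) →
      (((∑ i, mult F (p i) : ℕ) : ℝ) ≤ d * Real.sqrt r) ∧
      (1 ≤ d → ((∑ i, mult F (p i) : ℕ) : ℝ) < d * Real.sqrt r) := by
    intro F
    induction F using WfDvdMonoid.induction_on_irreducible with
    | zero => intro h; exact absurd rfl h
    | unit u hu =>
      intro hu0 d hd' _
      obtain ⟨v, hv⟩ := hu.exists_right_inv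
      have hd0 : d = 0 := by
        have hv0 : v ≠ 0 := by
          rintro rfl
          rw [mul_zero] at hv
          exact zero_ne_one hv
        have h1 : (u * v).IsHomogeneous 0 := by rw [hv]; exact isHomogeneous_one _ _
        obtain ⟨k, hk⟩ := isHomogeneous_of_mul h1 (mul_ne_zero hu0 hv0)
        obtain ⟨l, hl⟩ := isHomogeneous_of_mul (G := v) (H := u) (by rw [mul_comm]; exact h1)
          (mul_ne_zero hv0 hu0)
        have h2 := (hk.mul hl).inj_right h1 (mul_ne_zero hu0 hv0)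
        have h3 := hk.inj_right hd' hu0
        omega
      subst hd0
      have h1 := (hunit u hd' hu0).2
      constructor
      · simp [h1]
      · intro h; omega
    | mul a i ha hi ih =>
      intro hia d hd' hg
      obtain ⟨k, hk⟩ := isHomogeneous_of_mul hd' hia
      obtain ⟨l, hl⟩ := isHomogeneous_of_mul (G := a) (H := i) (N := d)
        (by rw [mul_comm]; exact hd') (by rw [mul_comm]; exact hia)
      have hdkl : d = k + l := (hd'.inj_right (hk.mul hl) hia)
      have hk1 : 1 ≤ k := by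
        by_contra h
        have hk0 : k = 0 := by omega
        subst hk0
        exact hi.not_isUnit (hunit i hk hi.ne_zero).1
      have h1 := hcomp i k hk1 hk hi (hg i hi (Dvd.intro _ rfl))
      have h2 := (ih ha l hl fun G hG hGa => hg G hG (hGa.mul_left i)).1
      have h3 : ((∑ j, mult i (p j) : ℕ) : ℝ) < k * Real.sqrt r := by
        have h4 : ((∑ j, mult i (p j) : ℕ) : ℝ) ^ 2 < (k * Real.sqrt r) ^ 2 := by
          rw [mul_pow, Real.sq_sqrt (by positivity)]
          have : ((∑ j, mult i (p j) : ℕ) : ℝ) ^ 2 < r * (k : ℝ) ^ 2 := by exact_mod_cast h1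
          linarith
        exact lt_of_pow_lt_pow_left₀ 2 (by positivity) h4
      have h5 : ∑ j, mult (i * a) (p j) = ∑ j, mult i (p j) + ∑ j, mult a (p j) := by
        rw [← Finset.sum_add_distrib]
        exact Finset.sum_congr rfl fun j _ => mult_mul hi.ne_zero ha _
      have h6 : ((∑ j, mult (i * a) (p j) : ℕ) : ℝ) < d * Real.sqrt r := by
        rw [h5, hdkl]
        push_cast at h2 h3 ⊢
        linarith
      exact ⟨h6.le, fun _ => h6⟩
  exact (key F hF0 d hF hgood).2 hd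

end Vale.Agent.NagataCurves
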